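import Mathlib
import Vale.Agent.P333.Model

/-!
P333: cyclic covers of a family of strings.
-/

namespace Vale.Agent.P333.R3.H619

open Vale.Agent.P333

/-- `C` is a cyclic cover of `S`: every nonempty string of `S` is a contiguous substring of a power
of one of the words of `C`. -/
def IsCyclicCover (S C : List (List ℕ)) : Prop :=
  ∀ s ∈ S, s ≠ [] → ∃ c ∈ C, ∃ n : ℕ, s <:+: (List.replicate n c).flatten

/-- The least total length of a cyclic cover of `S`. -/
noncomputable def cyc (S : List (List ℕ)) : ℕ :=
  sInf {n : ℕ | ∃ C : List (List ℕ), IsCyclicCover S C ∧ (C.map List.length).sum = n}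

/-- There is a polynomial time algorithm which outputs, for every family `S` with
`cyc S ≤ κ * opt S`, a common superstring of length at most `ρ * opt S`. -/
def HasApproxOn (κ ρ : ℝ) : Prop :=
  ∃ alg : List (List ℕ) → List ℕ, PolyTime familyW stringW alg ∧
    ∀ S, (cyc S : ℝ) ≤ κ * opt S →
      IsSuperstring S (alg S) ∧ ((alg S).length : ℝ) ≤ ρ * opt S

/-- The infimum of the ratios which are achieved in polynomial time on the families with
`cyc S ≤ κ * opt S`. -/
noncomputable def ratioOn (κ : ℝ) : ℝ := sInf {ρ : ℝ | HasApproxOn κ ρ}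

/-- There is a polynomial time algorithm which outputs, for every family `S` with
`cyc S ≤ κ * opt S`, a common superstring of length at most `opt S + c * cyc S`. -/
def HasPlusOn (κ c : ℝ) : Prop :=
  ∃ alg : List (List ℕ) → List ℕ, PolyTime familyW stringW alg ∧
    ∀ S, (cyc S : ℝ) ≤ κ * opt S →
      IsSuperstring S (alg S) ∧ ((alg S).length : ℝ) ≤ opt S + c * cyc S

end Vale.Agent.P333.R3.H619
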