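import Mathlib
import Vale.Agent.P333.Bdl.B1
import Vale.Agent.P333.R3.H619.Defs

set_option linter.all false

/-!
P333: the weight of a minimum cycle cover is at most the length of every cyclic cover.
-/

namespace Vale.Agent.P333.R3.H619

open Vale.Agent.P333 Vale.Agent.P333.U

theorem getD_power (c : List ℕ) : ∀ (n j : ℕ), j < n * c.length →
    (List.replicate n c).flatten.getD j 0 = c.getD (j % c.length) 0 := by
  intro n
  induction n with
  | zero => intro j hj; omega
  | succ n ih =>
    intro j hj
    rw [List.replicate_succ, List.flatten_cons]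
    by_cases h : j < c.length
    · rw [List.getD_append _ _ _ _ h, Nat.mod_eq_of_lt h]
    · have h1 : c.length ≤ j := by omega
      rw [List.getD_append_right _ _ _ _ h1, ih (j - c.length) (by rw [Nat.succ_mul] at hj; omega)]
      congr 1
      conv_rhs => rw [show j = (j - c.length) + c.length by omega, Nat.add_mod_right]

theorem occ_power {c s : List ℕ} {n : ℕ} (h : s <:+: (List.replicate n c).flatten) :
    ∃ a, OccAt (fun k => c.getD (k % c.length) 0) s a := by
  obtain ⟨u, v, huv⟩ := h
  refine ⟨u.length, fun i hi => ?_⟩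
  have hlen : ((List.replicate n c).flatten).length = n * c.length := by simp
  have hlt : u.length + i < n * c.length := by
    rw [← hlen, ← huv]; simp only [List.length_append]; omega
  show s[i] = c.getD ((u.length + i) % c.length) 0
  rw [← getD_power c n _ hlt, ← huv, List.append_assoc,
    List.getD_append_right _ _ _ _ (by omega), Nat.add_sub_cancel_left,
    List.getD_append _ _ _ _ hi, List.getD_eq_getElem _ _ hi]

/-- The strings which occur in a periodic word form a circle of small weight. -/
theorem exists_circle {F0 : List (List ℕ)} (hF0 : F0 ≠ [])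
    (hpw : F0.Pairwise (fun s t => ¬ s <:+: t ∧ ¬ t <:+: s)) {Z : ℕ → ℕ} {p : ℕ} (hp : 0 < p)
    (hZ : ∀ k, Z (k + p) = Z k) (h : ∀ s ∈ F0, ∃ a, OccAt Z s a) :
    ∃ F, F.Perm F0 ∧ cycW F ≤ p := by
  classical
  have hex : ∀ s ∈ F0, ∃ a, a < p ∧ OccAt Z s a := by
    intro s hs
    obtain ⟨a, ha⟩ := h s hs
    exact ⟨a % p, Nat.mod_lt _ hp, OccAt.mod hZ ha⟩
  choose! pos hpos using hex
  set F := F0.mergeSort (fun s t => decide (pos s ≤ pos t)) with hFdef
  have hFp : F.Perm F0 := List.mergeSort_perm _ _
  have hFs : F.Pairwise (fun s t => pos s ≤ pos t) := by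
    have := List.pairwise_mergeSort (le := fun s t : List ℕ => decide (pos s ≤ pos t))
      (by intro a b c; simp only [decide_eq_true_eq]; omega) (by intro a b; simp; omega) F0
    simpa using this
  have hFw : F.Pairwise (fun s t => ¬ s <:+: t ∧ ¬ t <:+: s) :=
    (hFp.pairwise_iff (fun {a b} hab => ⟨hab.2, hab.1⟩)).2 hpw
  have hFpos : ∀ t ∈ F, pos t < p ∧ OccAt Z t (pos t) := fun t ht => hpos t (hFp.mem_iff.1 ht)
  have hFlt : F.Pairwise (fun s t => pos s < pos t) := by
    have hboth := List.Pairwise.and hFs hFw
    refine List.Pairwise.imp_of_mem ?_ hboth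
    intro s t hs ht hst
    rcases Nat.lt_or_ge (pos s) (pos t) with h1 | h1
    · exact h1
    · exfalso
      have heq : pos s = pos t := le_antisymm hst.1 h1
      have hs' := (hFpos s hs).2
      have ht' := (hFpos t ht).2
      rw [heq] at hs'
      rcases Nat.le_total s.length t.length with h2 | h2
      · exact hst.2.1 (hs'.prefix_of_le ht' h2).isInfix
      · exact hst.2.2 (ht'.prefix_of_le hs' h2).isInfix
  have hFne : F ≠ [] := by
    intro hF
    rw [hF] at hFp
    exact hF0 hFp.symm.eq_nil
  exact ⟨F, hFp, cycW_le_period hZ F hFne (fun t ht => (hFpos t ht).2)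
    (fun t ht => (hFpos t ht).1) hFlt hFw⟩

/-- A cyclic cover gives a cycle cover. -/
theorem cover_of_cyclic : ∀ (C S : List (List ℕ)), (∀ s ∈ S, s ≠ []) →
    S.Pairwise (fun s t => ¬ s <:+: t ∧ ¬ t <:+: s) → IsCyclicCover S C →
    ∃ L' : List (List (List ℕ)), L'.flatten.Perm S ∧ (∀ c ∈ L', c ≠ []) ∧
      (L'.map cycW).sum ≤ (C.map List.length).sum := by
  classical
  intro C
  induction C with
  | nil =>
    intro S h1 _ h3
    have hS : S = [] := by
      by_contra hne
      obtain ⟨s, S', rfl⟩ := List.exists_cons_of_ne_nil hne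
      obtain ⟨c, hc, -⟩ := h3 s (by simp) (h1 s (by simp))
      simp at hc
    subst hS
    exact ⟨[], by simp, by simp, by simp⟩
  | cons c C ih =>
    intro S h1 h2 h3
    set P : List ℕ → Bool := fun s => decide (∃ n : ℕ, s <:+: (List.replicate n c).flatten) with hP
    have hperm : (S.filter P ++ S.filter (fun s => !P s)).Perm S := List.filter_append_perm P S
    obtain ⟨L2, hL1, hL2, hL3⟩ := ih (S.filter (fun s => !P s))
      (fun s hs => h1 s (List.mem_filter.1 hs).1) (h2.filter _) (by
        intro s hs hne
        obtain ⟨hs1, hs2⟩ := List.mem_filter.1 hs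
        obtain ⟨d, hd, n, hn⟩ := h3 s hs1 hne
        rcases List.mem_cons.1 hd with rfl | hd
        · exfalso
          have : P s = true := by rw [hP]; simp only [decide_eq_true_eq]; exact ⟨n, hn⟩
          simp [this] at hs2
        · exact ⟨d, hd, n, hn⟩)
    by_cases hF0 : S.filter P = []
    · refine ⟨L2, ?_, hL2, ?_⟩
      · rw [hF0, List.nil_append] at hperm
        exact hL1.trans hperm
      · simp only [List.map_cons, List.sum_cons]; omega
    · obtain ⟨s0, S0, hs0⟩ := List.exists_cons_of_ne_nil hF0
      have hmem : ∀ s ∈ S.filter P, ∃ n : ℕ, s <:+: (List.replicate n c).flatten := by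
        intro s hs
        have := (List.mem_filter.1 hs).2
        rw [hP] at this
        simpa using this
      have hcpos : 0 < c.length := by
        obtain ⟨n, hn⟩ := hmem s0 (by rw [hs0]; simp)
        have h4 := h1 s0 (List.mem_filter.1 (by rw [hs0]; simp : s0 ∈ S.filter P)).1
        have h5 := hn.length_le
        have h6 : 0 < s0.length := List.length_pos_iff.2 h4
        by_contra hcon
        have h7 : c.length = 0 := by omega
        have h8 : ((List.replicate n c).flatten).length = 0 := by simp [h7]
        omega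
      obtain ⟨F, hF1, hF2⟩ := exists_circle hF0 (h2.filter _) hcpos
        (Z := fun k => c.getD (k % c.length) 0) (by intro k; simp)
        (fun s hs => by obtain ⟨n, hn⟩ := hmem s hs; exact occ_power hn)
      refine ⟨F :: L2, ?_, ?_, ?_⟩
      · rw [List.flatten_cons]
        exact (hF1.append hL1).trans hperm
      · intro d hd
        rcases List.mem_cons.1 hd with rfl | hd
        · intro h0
          rw [h0] at hF1
          exact hF0 hF1.symm.eq_nil
        · exact hL2 d hd
      · simp only [List.map_cons, List.sum_cons]; omega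

/-- The weight of a minimum cycle cover is at most the total length of every cyclic cover. -/
theorem sum_cycW_le {S : List (List ℕ)} {L : List (List (List ℕ))} (hS : Sfree S)
    (hL : MinCover S L) {C : List (List ℕ)} (hC : IsCyclicCover S C) :
    (L.map cycW).sum ≤ (C.map List.length).sum := by
  obtain ⟨L', h1, h2, h3⟩ := cover_of_cyclic C S hS.1 hS.2 hC
  exact (hL.min L' h1 h2).trans h3

theorem exists_cyc (S : List (List ℕ)) :
    ∃ C, IsCyclicCover S C ∧ (C.map List.length).sum = cyc S := by
  have hne : {n : ℕ | ∃ C : List (List ℕ), IsCyclicCover S C ∧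
      (C.map List.length).sum = n}.Nonempty := by
    refine ⟨_, S, ?_, rfl⟩
    intro s hs _
    exact ⟨s, hs, 1, by simp⟩
  exact Nat.sInf_mem hne

theorem cyc_le {S C : List (List ℕ)} (h : IsCyclicCover S C) :
    cyc S ≤ (C.map List.length).sum := Nat.sInf_le ⟨C, h, rfl⟩

theorem sum_cycW_le_cyc {S : List (List ℕ)} {L : List (List (List ℕ))} (hS : Sfree S)
    (hL : MinCover S L) : (L.map cycW).sum ≤ cyc S := by
  obtain ⟨C, h1, h2⟩ := exists_cyc S
  rw [← h2]
  exact sum_cycW_le hS hL h1

theorem cyc_mono {S S' : List (List ℕ)} (h : ∀ s ∈ S, s ∈ S') : cyc S ≤ cyc S' := by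
  obtain ⟨C, h1, h2⟩ := exists_cyc S'
  rw [← h2]
  exact cyc_le (fun s hs hne => h1 s (h s hs) hne)

theorem cyc_le_length {S : List (List ℕ)} {T : List ℕ} (h : IsSuperstring S T) :
    cyc S ≤ T.length := by
  have := cyc_le (S := S) (C := [T]) (fun s hs _ => ⟨T, by simp, 1, by simpa using h s hs⟩)
  simpa using this

theorem cyc_le_opt (S : List (List ℕ)) : cyc S ≤ opt S := by
  obtain ⟨T, h1, h2⟩ := exists_opt S
  rw [← h2]
  exact cyc_le_length h1

end Vale.Agent.P333.R3.H619
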