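import Mathlib
import Vale.Agent.P333.Y.Final
import Vale.Agent.P333.R3.H619.Cyc

set_option linter.all false

/-!
P333: a polynomial time algorithm whose output has length at most `opt S + cyc S`.
-/

namespace Vale.Agent.P333.R3.H619

open Vale.Agent.P333 Vale.Agent.P333.U Vale.Agent.P333.E Vale.Agent.P333.G Vale.Agent.P333.Y
open Vale.Agent.Lib.PolyTime

theorem plusCyclic : ∃ alg : List (List ℕ) → List ℕ, PolyTime familyW stringW alg ∧
    ∀ S, IsSuperstring S (alg S) ∧ (alg S).length ≤ opt S + cyc S := by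
  obtain ⟨asg, ha1, ha2⟩ := assignAlg
  obtain ⟨cover, hc1, hc2⟩ := coverAlg assignAlg
  have h1 : PT ∅ (algY asg cover) := partP asg cover ha1 hc1
  refine ⟨fun S => algY asg cover (clean S), U.polyTime_of_PT (h1.comp (PT_clean PT.id)),
    fun S0 => ?_⟩
  set S := clean S0 with hSdef
  have hS : Sfree S := sfree_clean S0
  have hL := hc2 S hS
  set L := cover S with hLdef
  obtain ⟨hF, hP, hleft⟩ := H950.partM0 asg ha2 S L hS hL
  refine ⟨(isSuperstring_clean S0 _).1 (H241.partC S L _ (lastP asg S L) hS hL hF hP), ?_⟩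
  obtain ⟨T, hT, hTn⟩ := U.exists_opt S
  rw [hSdef, opt_clean] at hTn
  have e1 := H29.partM asg ha2 S L T hS hL hT
  have e2 := H196.partB_of_4b H241.partB4b S L _ (lastP asg S L) hS hL hF hP hleft
  have e3 := sum_cycW_le_cyc hS hL
  have e4 : cyc S ≤ cyc S0 := cyc_mono (fun s hs => (clean_sublist S0).subset hs)
  have e5 : (algY asg cover S).length =
    (outF S L (selF asg (bnd S) L) (lastP asg S L)).length := rfl
  rw [e5]
  omega

theorem plusCyclic_ratio : ∃ alg : List (List ℕ) → List ℕ, PolyTime familyW stringW alg ∧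
    ∀ S, IsSuperstring S (alg S) ∧ (alg S).length ≤ opt S + cyc S ∧
      ∀ κ : ℝ, (cyc S : ℝ) ≤ κ * opt S → ((alg S).length : ℝ) ≤ (1 + κ) * opt S := by
  obtain ⟨alg, h1, h2⟩ := plusCyclic
  refine ⟨alg, h1, fun S => ⟨(h2 S).1, (h2 S).2, fun κ hκ => ?_⟩⟩
  have h3 : ((alg S).length : ℝ) ≤ opt S + cyc S := by exact_mod_cast (h2 S).2
  linarith

end Vale.Agent.P333.R3.H619
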