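import Mathlib
import Vale.Agent.P333.Model
import Vale.Agent.P333.R3.H619.Defs

/-!
P333: lengths of the form `r * opt S + c * cyc S`.
-/

namespace Vale.Agent.P333.R3.H619

open Vale.Agent.P333

/-- There is a polynomial time algorithm which outputs, for every family `S`, a common superstring
of length at most `r * opt S + c * cyc S`. -/
def HasMix (r c : ℝ) : Prop :=
  ∃ alg : List (List ℕ) → List ℕ, PolyTime familyW stringW alg ∧
    ∀ S, IsSuperstring S (alg S) ∧ ((alg S).length : ℝ) ≤ r * opt S + c * cyc S

end Vale.Agent.P333.R3.H619
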