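import Mathlib
import Vale.Agent.P333.R3.H619.Cyc

set_option linter.all false

/-!
P333: stretching the letters of a family and adding a power of a new letter.
-/

namespace Vale.Agent.P333.R3.H619

open Vale.Agent.P333 Vale.Agent.P333.U

theorem opt_le {S : List (List ℕ)} {T : List ℕ} (h : IsSuperstring S T) : opt S ≤ T.length :=
  Nat.sInf_le ⟨T, h, rfl⟩

/-- Every letter `a` is replaced by the letters `q a, …, q a + q - 1`. -/
def stretch (q : ℕ) (s : List ℕ) : List ℕ :=
  s.flatMap (fun a => (List.range q).map (fun j => q * a + j))

theorem stretch_nil (q : ℕ) : stretch q [] = [] := rfl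

theorem stretch_cons (q a : ℕ) (s : List ℕ) :
    stretch q (a :: s) = (List.range q).map (fun j => q * a + j) ++ stretch q s := by
  simp [stretch]

theorem stretch_append (q : ℕ) (s t : List ℕ) :
    stretch q (s ++ t) = stretch q s ++ stretch q t := by
  simp [stretch]

theorem length_stretch (q : ℕ) (s : List ℕ) : (stretch q s).length = q * s.length := by
  induction s with
  | nil => simp [stretch_nil]
  | cons a s ih =>
    rw [stretch_cons, List.length_append, ih]
    simp only [List.length_map, List.length_range, List.length_cons]
    ring

theorem infix_stretch {q : ℕ} {s t : List ℕ} (h : s <:+: t) : stretch q s <:+: stretch q t := by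
  obtain ⟨u, v, rfl⟩ := h
  rw [stretch_append, stretch_append]
  exact ⟨_, _, rfl⟩

theorem stretch_power (q n : ℕ) (c : List ℕ) :
    stretch q (List.replicate n c).flatten = (List.replicate n (stretch q c)).flatten := by
  induction n with
  | zero => simp [stretch_nil]
  | succ n ih =>
    rw [List.replicate_succ, List.flatten_cons, stretch_append, ih, List.replicate_succ,
      List.flatten_cons]

/-- Reading the letters of residue `j`. -/
def rd (q z j x : ℕ) : Option ℕ := if x < z ∧ x % q = j then some (x / q) else none

theorem filterMap_range (a : ℕ) (j : ℕ) : ∀ n : ℕ,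
    (List.range n).filterMap (fun i => if i = j then some a else none) =
      if j < n then [a] else [] := by
  intro n
  induction n with
  | zero => simp
  | succ n ih =>
    rw [List.range_succ, List.filterMap_append, ih]
    by_cases h1 : j < n
    · have h2 : n ≠ j := by omega
      simp [h1, h2, Nat.lt_succ_of_lt h1]
    · by_cases h2 : n = j
      · subst h2
        simp
      · have h3 : ¬ j < n + 1 := by omega
        simp [h1, h2, h3]

theorem filterMap_block {q z j a : ℕ} (hj : j < q) (ha : q * a + q ≤ z) :
    ((List.range q).map (fun i => q * a + i)).filterMap (rd q z j) = [a] := by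
  rw [List.filterMap_map]
  have h1 : ∀ i ∈ List.range q, (rd q z j ∘ fun i => q * a + i) i =
      if i = j then some a else none := by
    intro i hi
    have hi' : i < q := List.mem_range.1 hi
    have h2 : (q * a + i) % q = i := by
      rw [Nat.mul_add_mod, Nat.mod_eq_of_lt hi']
    have h3 : (q * a + i) / q = a := by
      rw [Nat.mul_add_div (by omega), Nat.div_eq_of_lt hi', Nat.add_zero]
    have h4 : q * a + i < z := by omega
    simp only [Function.comp, rd, h2, h3, h4, true_and]
  rw [List.filterMap_congr h1, filterMap_range, if_pos hj]

theorem filterMap_stretch {q z j : ℕ} (hj : j < q) : ∀ s : List ℕ,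
    (∀ a ∈ s, q * a + q ≤ z) → (stretch q s).filterMap (rd q z j) = s := by
  intro s
  induction s with
  | nil => intro _; simp [stretch_nil]
  | cons a s ih =>
    intro h
    rw [stretch_cons, List.filterMap_append, filterMap_block hj (h a (by simp)),
      ih (fun b hb => h b (by simp [hb]))]
    rfl

theorem infix_filterMap {f : ℕ → Option ℕ} {s t : List ℕ} (h : s <:+: t) :
    s.filterMap f <:+: t.filterMap f := by
  obtain ⟨u, v, rfl⟩ := h
  rw [List.filterMap_append, List.filterMap_append]
  exact ⟨_, _, rfl⟩

theorem sum_rd {q z : ℕ} (hq : 0 < q) : ∀ T : List ℕ,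
    (∑ j ∈ Finset.range q, (T.filterMap (rd q z j)).length) + T.count z ≤ T.length := by
  intro T
  induction T with
  | nil => simp
  | cons x T ih =>
    have h1 : ∀ j, ((x :: T).filterMap (rd q z j)).length =
        (if x < z ∧ x % q = j then 1 else 0) + (T.filterMap (rd q z j)).length := by
      intro j
      rw [List.filterMap_cons]
      unfold rd
      split_ifs with h
      · simp only [List.length_cons]; omega
      · simp
    simp only [h1, Finset.sum_add_distrib, List.count_cons, List.length_cons, beq_iff_eq]
    have h2 : (∑ j ∈ Finset.range q, if x < z ∧ x % q = j then 1 else 0) + (if x = z then 1 else 0)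
        ≤ 1 := by
      by_cases hx : x < z
      · have h3 : ¬ x = z := by omega
        have h4 : (∑ j ∈ Finset.range q, if x < z ∧ x % q = j then 1 else 0) = 1 := by
          simp only [hx, true_and]
          rw [Finset.sum_ite_eq, if_pos (Finset.mem_range.2 (Nat.mod_lt _ hq))]
        rw [h4, if_neg h3]
      · have h4 : (∑ j ∈ Finset.range q, if x < z ∧ x % q = j then 1 else 0) = 0 := by
          simp [hx]
        rw [h4]
        split_ifs <;> omega
    omega

/-- The family: the letters are stretched, and a power of the new letter `z` is added. -/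
def pad (q z M : ℕ) (F : List (List ℕ)) : List (List ℕ) :=
  List.replicate M z :: F.map (stretch q)

theorem pad_lower {q z M : ℕ} {F : List (List ℕ)} (hq : 0 < q)
    (hz : ∀ s ∈ F, ∀ a ∈ s, q * a + q ≤ z) : M + q * opt F ≤ opt (pad q z M F) := by
  obtain ⟨T, hT, hTn⟩ := exists_opt (pad q z M F)
  rw [← hTn]
  have h1 : M ≤ T.count z := by
    have := hT (List.replicate M z) (by simp [pad])
    exact List.replicate_sublist_iff.1 this.sublist
  have h2 : ∀ j ∈ Finset.range q, opt F ≤ (T.filterMap (rd q z j)).length := by
    intro j hj
    refine opt_le fun s hs => ?_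
    have h3 := hT (stretch q s) (by simp only [pad, List.mem_cons, List.mem_map]; exact Or.inr ⟨s, hs, rfl⟩)
    have h4 := infix_filterMap (f := rd q z j) h3
    rwa [filterMap_stretch (Finset.mem_range.1 hj) s (hz s hs)] at h4
  have h5 := Finset.card_nsmul_le_sum _ _ _ h2
  rw [Finset.card_range, smul_eq_mul] at h5
  have h6 := sum_rd (z := z) hq T
  omega

theorem pad_upper {q z M : ℕ} {F : List (List ℕ)} : opt (pad q z M F) ≤ M + q * opt F := by
  obtain ⟨T, hT, hTn⟩ := exists_opt F
  have h : IsSuperstring (pad q z M F) (List.replicate M z ++ stretch q T) := by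
    intro s hs
    simp only [pad, List.mem_cons, List.mem_map] at hs
    rcases hs with rfl | ⟨t, ht, rfl⟩
    · exact (List.prefix_append _ _).isInfix
    · exact (infix_stretch (hT t ht)).trans (List.suffix_append _ _).isInfix
  refine (opt_le h).trans ?_
  rw [List.length_append, List.length_replicate, length_stretch, hTn]

theorem pad_cyc {q z M : ℕ} {F C : List (List ℕ)} (hC : IsCyclicCover F C) :
    cyc (pad q z M F) ≤ q * (C.map List.length).sum + 1 := by
  have h : IsCyclicCover (pad q z M F) ([z] :: C.map (stretch q)) := by
    intro s hs hne
    simp only [pad, List.mem_cons, List.mem_map] at hs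
    rcases hs with rfl | ⟨t, ht, rfl⟩
    · refine ⟨[z], by simp, M, ?_⟩
      have : (List.replicate M [z]).flatten = List.replicate M z := by
        induction M with
        | zero => rfl
        | succ M ih =>
          rw [List.replicate_succ, List.flatten_cons, List.replicate_succ (a := z)]
          by_cases hM : M = 0
          · subst hM; rfl
          · rw [ih (by simp [hM])]; rfl
      rw [this]
    · have ht0 : t ≠ [] := by
        rintro rfl
        exact hne rfl
      obtain ⟨c, hc, n, hn⟩ := hC t ht ht0
      refine ⟨stretch q c, by simp only [List.mem_cons, List.mem_map]; exact Or.inr ⟨c, hc, rfl⟩, n, ?_⟩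
      rw [← stretch_power]
      exact infix_stretch hn
  refine (cyc_le h).trans ?_
  rw [List.map_cons, List.sum_cons, List.map_map]
  have : (C.map (List.length ∘ stretch q)).sum = q * (C.map List.length).sum := by
    clear h hC
    induction C with
    | nil => simp
    | cons c C ih =>
      simp only [List.map_cons, List.sum_cons, Function.comp, length_stretch] at ih ⊢
      rw [ih]; ring
  rw [this]
  simp only [List.length_singleton]
  omega

/-- The word of a circle. -/
def cw (c : List (List ℕ)) : List ℕ := (mergeL c).take (cycW c)

theorem length_cw (c : List (List ℕ)) : (cw c).length = cycW c := by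
  have := length_mergeL' c
  rw [cw, List.length_take]
  omega

theorem cycWord_eq (c : List (List ℕ)) (hw : 0 < cycW c) (k : ℕ) :
    cycWord c k = (cw c).getD (k % (cw c).length) 0 := by
  rw [length_cw]
  unfold cycWord cw
  rw [List.getD_eq_getElem?_getD, List.getD_eq_getElem?_getD, List.getElem?_take,
    if_pos (Nat.mod_lt _ hw)]

theorem infix_power {c s : List ℕ} (hc : 0 < c.length) {a : ℕ}
    (h : ∀ i (hi : i < s.length), s[i] = c.getD ((a + i) % c.length) 0) :
    ∃ n, s <:+: (List.replicate n c).flatten := by
  refine ⟨a + s.length + 1, ?_⟩
  set n := a + s.length + 1 with hn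
  have hlen : ((List.replicate n c).flatten).length = n * c.length := by simp
  have hle : a + s.length ≤ n * c.length := by
    have : n * 1 ≤ n * c.length := Nat.mul_le_mul_left _ hc
    omega
  have he : s = (((List.replicate n c).flatten).drop a).take s.length := by
    apply List.ext_getElem
    · simp only [List.length_take, List.length_drop, hlen]
      omega
    · intro i h1 h2
      rw [List.getElem_take, List.getElem_drop, h i h1,
        ← getD_power c n (a + i) (by omega), List.getD_eq_getElem]
  rw [he]
  exact (List.take_prefix _ _).isInfix.trans (List.drop_suffix _ _).isInfix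

/-- The words of the circles of a cover are a cyclic cover. -/
theorem cyclic_of_cover {S : List (List ℕ)} {L : List (List (List ℕ))}
    (hL : MinCover (clean S) L) : IsCyclicCover S (L.map cw) := by
  intro s hs hne
  obtain ⟨t, ht, hst⟩ := exists_mem_clean S hs hne
  obtain ⟨c, hc, htc⟩ := List.mem_flatten.1 (hL.perm.mem_iff.2 ht)
  have hw : 0 < cycW c := cycW_pos (hL.ne c hc) (fun u hu => (sfree_clean S).1 u
    (hL.perm.mem_iff.1 (List.mem_flatten.2 ⟨c, hc, hu⟩)))
  obtain ⟨a, ha⟩ := occurs hw htc
  obtain ⟨n, hn⟩ := infix_power (c := cw c) (s := t) (a := a) (by rw [length_cw]; exact hw)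
    (fun i hi => by rw [ha i hi, cycWord_eq c hw])
  exact ⟨cw c, List.mem_map.2 ⟨c, hc, rfl⟩, n, hst.trans hn⟩

theorem sum_cw (L : List (List (List ℕ))) :
    ((L.map cw).map List.length).sum = (L.map cycW).sum := by
  rw [List.map_map]
  congr 1
  refine List.map_congr_left fun c _ => ?_
  exact length_cw c

/-- The weight of the minimum cycle cover of the reduced family is `cyc S`. -/
theorem cyc_eq {S : List (List ℕ)} {L : List (List (List ℕ))} (hL : MinCover (clean S) L) :
    cyc S = (L.map cycW).sum := by
  apply le_antisymm
  · have := cyc_le (cyclic_of_cover hL)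
    rwa [sum_cw] at this
  · exact (sum_cycW_le_cyc (sfree_clean S) hL).trans
      (cyc_mono (fun s hs => (clean_sublist S).subset hs))

end Vale.Agent.P333.R3.H619
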