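import Mathlib
import Vale.Agent.P333.Bdl.B2
import Vale.Agent.P333.E.AlgPT
import Vale.Agent.P333.NPDefs
import Vale.Agent.P333.R3.H619.Str

set_option linter.all false

/-!
P333: hardness for the families with `cyc S ≤ κ * opt S`.
-/

namespace Vale.Agent.P333.R3.H619

open Vale.Agent.P333 Vale.Agent.P333.U Vale.Agent.Lib.PolyTime

/-- NP-hardness of the approximation within every ratio below `θ`. -/
def Hard (θ : ℝ) : Prop := ∀ ρ : ℝ, ρ < θ → ∀ L ∈ classNP,
  ∃ (f : List Bool → List (List ℕ)) (k : List Bool → ℕ),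
    PolyTime (fun w : List Bool => w) familyW f ∧
    PolyTime (fun w : List Bool => w) Nat.bits k ∧
    ∀ x, (x ∈ L → opt (f x) ≤ k x) ∧ (x ∉ L → ρ * k x < opt (f x))

theorem PT_of_word {β : Type} [Enc β] {cb : β → List Bool} (hcb : cb = enc)
    {f : List Bool → β} (hf : PolyTime (fun w : List Bool => w) cb f) :
    PT ∅ (fun r : Raw => f r.w) := by
  obtain ⟨M⟩ := hf
  obtain ⟨W, hW, hW'⟩ := exists_FP_of_tm2 (A := ∅) M
  exact ⟨W, hW, fun r => by rw [← hcb]; exact hW' r.w⟩

theorem word_of_PT {β : Type} [Enc β] {cb : β → List Bool} (hcb : cb = enc)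
    {f : List Bool → β} (hf : PT ∅ (fun r : Raw => f r.w)) :
    PolyTime (fun w : List Bool => w) cb f := by
  obtain ⟨g, hg, hgf⟩ := hf
  exact tm2_of_polyTimeFun _ _ _ g (polyTimeFun_iff.2 hg) fun x => by
    rw [hcb]; exact hgf ⟨x⟩

theorem opt_le_flatten (S : List (List ℕ)) : opt S ≤ S.flatten.length := by
  refine opt_le fun s hs => ?_
  exact List.infix_of_mem_flatten hs

theorem PT_stretch {A : Set Word} (q : ℕ) : PT A (fun s : List ℕ => stretch q s) := by
  refine PT.flatMap (l := fun s : List ℕ => s)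
    (f := fun (_ : List ℕ) (a : ℕ) => (List.range q).map (fun j => q * a + j)) PT.id ?_
  exact PT.map (l := fun _ : List ℕ × ℕ => List.range q)
    (f := fun (p : List ℕ × ℕ) j => q * p.2 + j) (PT.const _)
    (PT.add (PT.mul (PT.const q) PT.fst'.snd) PT.snd')

section

variable (cover : List (List ℕ) → List (List (List ℕ))) (a b q : ℕ)

/-- The weight of the cover (at most the total length). -/
def wt (F : List (List ℕ)) : ℕ := min ((cover (clean F)).map cycW).sum F.flatten.length

/-- The length of the added string. -/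
def padLen (F : List (List ℕ)) : ℕ := (b * (q * wt cover F + 1)) / a + 1 - q * wt cover F

/-- The new letter. -/
def letter (F : List (List ℕ)) : ℕ := q * (F.flatten.sum + 1)

/-- The new family. -/
def fn (F : List (List ℕ)) (k : ℕ) : List (List ℕ) :=
  if wt cover F ≤ k then pad q (letter q F) (padLen cover a b q F) F else [List.replicate b 0]

/-- The new bound. -/
def kn (F : List (List ℕ)) (k : ℕ) : ℕ :=
  if wt cover F ≤ k then q * k + padLen cover a b q F else 0

variable {cover}

theorem PT_wt {A : Set Word} {α : Type*} [Enc α] (hc : PT A cover) {F : α → List (List ℕ)}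
    (hF : PT A F) : PT A (fun a => wt cover (F a)) := by
  refine PT.min (PT.sum (PT.map (f := fun _ c => cycW c) (hc.comp (PT_clean hF))
    (E.PT_cycW PT.snd'))) hF.flatten.length

theorem PBd_wt {A : Set Word} {α : Type*} [Enc α] {F : α → List (List ℕ)}
    (hF : PT A F) : PBd (fun a => wt cover (F a)) := by
  refine (hF.flatten.pbd).mono fun a => (min_le_right _ _).trans ?_
  exact length_le_esize _

theorem PT_padLen {A : Set Word} {α : Type*} [Enc α] (hc : PT A cover) {F : α → List (List ℕ)}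
    (hF : PT A F) : PT A (fun x => padLen cover a b q (F x)) := by
  have h := PT_wt hc hF
  exact PT.sub (PT.add (PT.div (PT.mul (PT.const b) (PT.add (PT.mul (PT.const q) h) (PT.const 1)))
    (PT.const a)) (PT.const 1)) (PT.mul (PT.const q) h)

theorem PBd_padLen {A : Set Word} {α : Type*} [Enc α] {F : α → List (List ℕ)}
    (hF : PT A F) : PBd (fun x => padLen cover a b q (F x)) := by
  have h : PBd (fun a => wt cover (F a)) := PBd_wt hF
  have h2 : PBd (fun x => b * (q * wt cover (F x) + 1) + 1) := by fun_prop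
  exact h2.mono fun x => (Nat.sub_le _ _).trans (Nat.add_le_add_right (Nat.div_le_self _ _) _)

theorem PT_letter {A : Set Word} {α : Type*} [Enc α] {F : α → List (List ℕ)}
    (hF : PT A F) : PT A (fun a => letter q (F a)) :=
  PT.mul (PT.const q) (PT.add hF.flatten.sum (PT.const 1))

theorem PT_fn {A : Set Word} {α : Type*} [Enc α] (hc : PT A cover) {F : α → List (List ℕ)}
    {k : α → ℕ} (hF : PT A F) (hk : PT A k) : PT A (fun x => fn cover a b q (F x) (k x)) := by
  refine PT.ite (p := fun a => wt cover (F a) ≤ k a) (PT.le (PT_wt hc hF) hk) ?_ (PT.const _)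
  exact PT.cons (PT.replicate (PT_padLen a b q hc hF) (PBd_padLen a b q hF) (PT_letter q hF))
    (PT.map (f := fun _ s => stretch q s) hF ((PT_stretch q).comp PT.snd'))

theorem PT_kn {A : Set Word} {α : Type*} [Enc α] (hc : PT A cover) {F : α → List (List ℕ)}
    {k : α → ℕ} (hF : PT A F) (hk : PT A k) : PT A (fun x => kn cover a b q (F x) (k x)) :=
  PT.ite (p := fun a => wt cover (F a) ≤ k a) (PT.le (PT_wt hc hF) hk)
    (PT.add (PT.mul (PT.const q) hk) (PT_padLen a b q hc hF)) (PT.const _)

variable (hcov : ∀ S, Sfree S → MinCover S (cover S))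

include hcov in
theorem wt_eq (F : List (List ℕ)) : wt cover F = cyc F := by
  have h1 := cyc_eq (hcov _ (sfree_clean F))
  have h2 := (cyc_le_opt F).trans (opt_le_flatten F)
  unfold wt
  rw [← h1]
  omega

theorem letter_ok {F : List (List ℕ)} : ∀ s ∈ F, ∀ x ∈ s, q * x + q ≤ letter q F := by
  intro s hs x hx
  have h1 : x ≤ F.flatten.sum := List.single_le_sum (by simp) _ (List.mem_flatten.2 ⟨s, hs, hx⟩)
  have h2 : q * x ≤ q * F.flatten.sum := Nat.mul_le_mul_left _ h1
  unfold letter
  rw [Nat.mul_add]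
  omega

theorem opt_rep (m : ℕ) : m ≤ opt [List.replicate m 0] := by
  obtain ⟨T, hT, hTn⟩ := exists_opt [List.replicate m 0]
  have := (hT (List.replicate m 0) (by simp)).length_le
  rw [List.length_replicate] at this
  omega

theorem cyc_rep (m : ℕ) : cyc [List.replicate m 0] ≤ 1 := by
  have h : IsCyclicCover [List.replicate m 0] [[0]] := by
    intro s hs _
    rw [List.mem_singleton] at hs
    subst hs
    refine ⟨[0], by simp, m, ?_⟩
    have : (List.replicate m [0]).flatten = List.replicate m 0 := by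
      rw [List.eq_replicate_iff]
      refine ⟨by simp, fun b hb => ?_⟩
      obtain ⟨l, hl, hb⟩ := List.mem_flatten.1 hb
      rw [List.eq_of_mem_replicate hl] at hb
      simpa using hb
    rw [this]
  simpa using cyc_le h

theorem padLen_add (ha : 0 < a) (hab : a ≤ b) (F : List (List ℕ)) :
    padLen cover a b q F + q * wt cover F = (b * (q * wt cover F + 1)) / a + 1 := by
  have h1 : q * wt cover F + 1 ≤ (b * (q * wt cover F + 1)) / a := by
    rw [Nat.le_div_iff_mul_le ha, Nat.mul_comm]
    exact Nat.mul_le_mul_right _ hab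
  unfold padLen
  omega

include hcov in
/-- The new family belongs to the class. -/
theorem fn_class (ha : 0 < a) (hab : a ≤ b) (hq : 0 < q) (F : List (List ℕ)) (k : ℕ) :
    b * cyc (fn cover a b q F k) ≤ a * opt (fn cover a b q F k) := by
  unfold fn
  split_ifs with h
  · have h1 := pad_cyc (q := q) (z := letter q F) (M := padLen cover a b q F)
      (cyclic_of_cover (hcov _ (sfree_clean F)))
    rw [sum_cw, ← cyc_eq (hcov _ (sfree_clean F)), ← wt_eq hcov F] at h1
    have h2 := pad_lower (M := padLen cover a b q F) hq (letter_ok (q := q) (F := F))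
    have h3 : wt cover F ≤ opt F := by rw [wt_eq hcov F]; exact cyc_le_opt F
    have h4 : q * wt cover F ≤ q * opt F := Nat.mul_le_mul_left _ h3
    have h5 := Nat.mul_le_mul_left b h1
    have h6 := padLen_add (cover := cover) a b q ha hab F
    have h7 : b * (q * wt cover F + 1) < a * ((b * (q * wt cover F + 1)) / a + 1) :=
      Nat.lt_mul_div_succ _ ha
    have h8 : a * ((b * (q * wt cover F + 1)) / a + 1) ≤
        a * opt (pad q (letter q F) (padLen cover a b q F) F) :=
      Nat.mul_le_mul_left _ (by omega)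
    omega
  · have h1 := opt_rep b
    have h2 := Nat.mul_le_mul_left b (cyc_rep b)
    have h3 : 1 * opt [List.replicate b 0] ≤ a * opt [List.replicate b 0] :=
      Nat.mul_le_mul_right _ ha
    omega

include hcov in
theorem fn_yes {F : List (List ℕ)} {k : ℕ} (h : opt F ≤ k) :
    opt (fn cover a b q F k) ≤ kn cover a b q F k := by
  have h1 : wt cover F ≤ k := by rw [wt_eq hcov F]; exact (cyc_le_opt F).trans h
  unfold fn kn
  rw [if_pos h1, if_pos h1]
  have h2 := pad_upper (q := q) (z := letter q F) (M := padLen cover a b q F) (F := F)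
  have h3 := Nat.mul_le_mul_left q h
  omega

theorem fn_no (ha : 0 < a) (hab : a ≤ b) (hq : 0 < q) {F : List (List ℕ)} {k : ℕ} {ρ r d : ℝ}
    (hρ1 : 1 ≤ ρ) (hr1 : 1 ≤ r) (hd : (ρ - 1) * b = d * a) (hd1 : 2 * d < 1)
    (hqr : 2 * d ≤ q * (r - 1 - d))
    (h : r * k < opt F) : ρ * kn cover a b q F k < opt (fn cover a b q F k) := by
  have ha' : (0 : ℝ) < a := by exact_mod_cast ha
  have hab' : (a : ℝ) ≤ b := by exact_mod_cast hab
  have hd0 : 0 ≤ d := by
    by_contra hcon
    have : d * a < 0 := mul_neg_of_neg_of_pos (by linarith) ha'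
    have h0 : 0 ≤ (ρ - 1) * b := mul_nonneg (by linarith) (Nat.cast_nonneg _)
    linarith
  have hρd : ρ - 1 ≤ d := by
    have h0 : (ρ - 1) * a ≤ (ρ - 1) * b := mul_le_mul_of_nonneg_left hab' (by linarith)
    rw [hd] at h0
    exact le_of_mul_le_mul_right h0 ha'
  unfold fn kn
  split_ifs with h1
  · have h2 := pad_lower (M := padLen cover a b q F) hq (letter_ok (q := q) (F := F))
    have h2' : ((padLen cover a b q F : ℕ) : ℝ) + q * opt F ≤
        opt (pad q (letter q F) (padLen cover a b q F) F) := by exact_mod_cast h2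
    -- `a (q k + M) ≤ b (q k + 1) + a`
    have h3 : a * (q * k + padLen cover a b q F) ≤ b * (q * k + 1) + a := by
      have h4 : q * wt cover F ≤ q * k := Nat.mul_le_mul_left _ h1
      obtain ⟨e, he⟩ := Nat.exists_eq_add_of_le h4
      have h5 : a * e ≤ b * e := Nat.mul_le_mul_right _ hab
      have h6 := padLen_add (cover := cover) a b q ha hab F
      have h7 : a * ((b * (q * wt cover F + 1)) / a) ≤ b * (q * wt cover F + 1) :=
        Nat.mul_div_le _ _
      have h8 : q * k + padLen cover a b q F = e + ((b * (q * wt cover F + 1)) / a + 1) := by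
        omega
      rw [h8, he]
      have h9 : b * (q * wt cover F + e + 1) = b * (q * wt cover F + 1) + b * e := by ring
      rw [h9, Nat.mul_add, Nat.mul_add]
      omega
    have h3' : (a : ℝ) * ((q : ℝ) * k + (padLen cover a b q F : ℕ)) ≤ b * (q * k + 1) + a := by
      exact_mod_cast h3
    have hq' : (1 : ℝ) ≤ q := by exact_mod_cast hq
    have h9 : (ρ - 1) * ((q : ℝ) * k + (padLen cover a b q F : ℕ)) ≤ d * (q * k + 2) := by
      have h10 := mul_le_mul_of_nonneg_left h3' (by linarith : (0 : ℝ) ≤ ρ - 1)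
      have h11 : (ρ - 1) * (b * ((q : ℝ) * k + 1) + a) = d * a * (q * k + 1) + (ρ - 1) * a := by
        rw [← hd]; ring
      rw [h11] at h10
      have h12 : (ρ - 1) * a ≤ d * a := mul_le_mul_of_nonneg_right hρd ha'.le
      have h13 : a * ((ρ - 1) * ((q : ℝ) * k + (padLen cover a b q F : ℕ))) ≤
          a * (d * (q * k + 2)) := by nlinarith
      exact le_of_mul_le_mul_left h13 ha'
    have hkey : (q : ℝ) * k + d * (q * k + 2) < q * opt F := by
      rcases Nat.eq_zero_or_pos k with hk | hk
      · subst hk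
        have h10 : 0 < opt F := by
          have : (0 : ℝ) < opt F := by simpa using h
          exact_mod_cast this
        have h11 : (1 : ℝ) ≤ opt F := by exact_mod_cast h10
        have h12 : (q : ℝ) * 1 ≤ q * opt F := mul_le_mul_of_nonneg_left h11 (by linarith)
        simp only [Nat.cast_zero, mul_zero, zero_add]
        linarith
      · have hk' : (1 : ℝ) ≤ k := by exact_mod_cast hk
        have h10 : (q : ℝ) * (r * k) < q * opt F := mul_lt_mul_of_pos_left h (by linarith)
        have h11 : 2 * d * k ≤ q * (r - 1 - d) * k := mul_le_mul_of_nonneg_right hqr (by linarith)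
        have h12 : 2 * d * 1 ≤ 2 * d * k := mul_le_mul_of_nonneg_left hk' (by linarith)
        nlinarith
    push_cast
    nlinarith
  · have h1 := opt_rep b
    have h2 : (0 : ℝ) < opt [List.replicate b 0] := by
      have : 0 < opt [List.replicate b 0] := by omega
      exact_mod_cast this
    simpa using h2

end

/-- Hardness for the families with `cyc S ≤ κ * opt S`. -/
theorem hard_class {θ : ℝ} (hθ1 : 1 < θ) (hθ : θ < 3 / 2) (H : Hard θ) (κ : ℝ) (hκ : 0 < κ)
    (hκ1 : κ ≤ 1) (ρ : ℝ) (hρ : ρ < 1 + (θ - 1) * κ) (L : Set (List Bool)) (hL : L ∈ classNP) :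
    ∃ (f : List Bool → List (List ℕ)) (k : List Bool → ℕ),
      PolyTime (fun w : List Bool => w) familyW f ∧
      PolyTime (fun w : List Bool => w) Nat.bits k ∧
      ∀ x, (cyc (f x) : ℝ) ≤ κ * opt (f x) ∧ (x ∈ L → opt (f x) ≤ k x) ∧
        (x ∉ L → ρ * k x < opt (f x)) := by
  have hθ0 : 0 < θ - 1 := by linarith
  set ρ1 : ℝ := max ρ 1 with hρ1
  have h1 : 1 ≤ ρ1 := le_max_right _ _
  have h3 : ρ1 < 1 + (θ - 1) * κ := max_lt hρ (by
    have : 0 < (θ - 1) * κ := mul_pos hθ0 hκ
    linarith)
  have h4 : (ρ1 - 1) / (θ - 1) < κ := by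
    rw [div_lt_iff₀ hθ0]
    linarith
  obtain ⟨c, hc1, hc2⟩ := exists_rat_btwn h4
  have hc0 : (0 : ℝ) < c := lt_of_le_of_lt (div_nonneg (by linarith) hθ0.le) hc1
  have hc0' : 0 < c := by exact_mod_cast hc0
  obtain ⟨a, ha⟩ : ∃ a : ℕ, (a : ℤ) = c.num := ⟨c.num.toNat, Int.toNat_of_nonneg
    (Rat.num_nonneg.2 hc0'.le)⟩
  set b : ℕ := c.den with hb
  have hb0 : (0 : ℝ) < b := by exact_mod_cast c.den_pos
  have hcb : (c : ℝ) * b = a := by
    have h5 : (c : ℚ) * c.den = c.num := Rat.mul_den_eq_num c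
    have h6 : ((c : ℝ)) * (c.den : ℝ) = (c.num : ℝ) := by exact_mod_cast h5
    rw [hb, h6, ← ha]
    simp
  have ha0 : (0 : ℝ) < a := by rw [← hcb]; exact mul_pos hc0 hb0
  have ha0' : 0 < a := by exact_mod_cast ha0
  have hab : (a : ℝ) ≤ b := by
    rw [← hcb]
    have : (c : ℝ) * b ≤ 1 * b := mul_le_mul_of_nonneg_right (by linarith) hb0.le
    linarith
  have hab' : a ≤ b := by exact_mod_cast hab
  set d : ℝ := (ρ1 - 1) / c with hd
  have hdc : d * c = ρ1 - 1 := by rw [hd, div_mul_cancel₀ _ hc0.ne']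
  have hda : (ρ1 - 1) * b = d * a := by
    rw [← hcb, ← mul_assoc, hdc]
  have hd0 : 0 ≤ d := div_nonneg (by linarith) hc0.le
  have hdθ : d < θ - 1 := by
    rw [hd, div_lt_iff₀ hc0]
    rw [div_lt_iff₀ hθ0] at hc1
    linarith
  set r : ℝ := 1 + (d + (θ - 1)) / 2 with hr
  have hr1 : 1 ≤ r := by rw [hr]; linarith
  have hrθ : r < θ := by rw [hr]; linarith
  have hgap : 0 < r - 1 - d := by rw [hr]; linarith
  obtain ⟨q0, hq0⟩ := exists_nat_ge (2 * d / (r - 1 - d))
  obtain ⟨f, k, hf, hk, hfk⟩ := H r hrθ L hL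
  obtain ⟨cover, hv1, hv2⟩ := coverAlg assignAlg
  have hF : PT ∅ (fun r : Raw => f r.w) := PT_of_word U.familyW_eq hf
  have hK : PT ∅ (fun r : Raw => k r.w) := PT_of_word rfl hk
  refine ⟨fun x => fn cover a b (q0 + 1) (f x) (k x), fun x => kn cover a b (q0 + 1) (f x) (k x),
    word_of_PT U.familyW_eq (PT_fn a b (q0 + 1) hv1 hF hK),
    word_of_PT rfl (PT_kn a b (q0 + 1) hv1 hF hK), fun x => ⟨?_, ?_, ?_⟩⟩
  · have h7 := fn_class a b (q0 + 1) hv2 ha0' hab' (by omega) (f x) (k x)
    have h8 : (b : ℝ) * cyc (fn cover a b (q0 + 1) (f x) (k x)) ≤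
        a * opt (fn cover a b (q0 + 1) (f x) (k x)) := by exact_mod_cast h7
    rw [← hcb] at h8
    have h9 : (b : ℝ) * cyc (fn cover a b (q0 + 1) (f x) (k x)) ≤
        b * (c * opt (fn cover a b (q0 + 1) (f x) (k x))) := by linarith
    have h10 := le_of_mul_le_mul_left h9 hb0
    refine h10.trans ?_
    exact mul_le_mul_of_nonneg_right hc2.le (Nat.cast_nonneg _)
  · intro hx
    exact fn_yes a b (q0 + 1) hv2 ((hfk x).1 hx)
  · intro hx
    have h5 : (q0 : ℝ) + 1 = ((q0 + 1 : ℕ) : ℝ) := by push_cast; ring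
    have h6 : 2 * d ≤ ((q0 + 1 : ℕ) : ℝ) * (r - 1 - d) := by
      rw [div_le_iff₀ hgap] at hq0
      rw [← h5]
      nlinarith
    have h7 := fn_no (cover := cover) a b (q0 + 1) ha0' hab' (by omega) h1 hr1 hda
      (by linarith) h6 ((hfk x).2 hx)
    refine lt_of_le_of_lt ?_ h7
    exact mul_le_mul_of_nonneg_right (le_max_left _ _) (Nat.cast_nonneg _)

end Vale.Agent.P333.R3.H619
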