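import Mathlib
import Vale.Agent.P333.Y.Final
import Vale.Agent.P333.H802.PTsel
import Vale.Agent.P333.H359.M5
import Vale.Agent.P333.R3.H619.Hard

set_option linter.all false

/-!
P333: an approximation on the families with `cyc S ≤ κ * opt S` gives an approximation for all
families.
-/

namespace Vale.Agent.P333.R3.H619

open Vale.Agent.P333 Vale.Agent.P333.U Vale.Agent.P333.Y Vale.Agent.Lib.PolyTime

/-- The letters of residue `j` below `z`. -/
def dec (q z j : ℕ) (T : List ℕ) : List ℕ :=
  T.flatMap (fun x => if x < z ∧ x % q = j then [x / q] else [])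

theorem dec_eq (q z j : ℕ) (T : List ℕ) : dec q z j T = T.filterMap (rd q z j) := by
  induction T with
  | nil => rfl
  | cons x T ih =>
    rw [List.filterMap_cons]
    unfold dec at ih ⊢
    rw [List.flatMap_cons, ih]
    unfold rd
    split_ifs with h
    · rfl
    · rfl

variable (cover : List (List ℕ) → List (List (List ℕ))) (a b q : ℕ)

/-- The shortest of the decoded words. -/
def algR (alg : List (List ℕ) → List ℕ) (S : List (List ℕ)) : List ℕ :=
  amin List.length [] ((List.range q).map
    (fun j => dec q (letter q S) j (alg (fn cover a b q S (wt cover S)))))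

variable {cover}

theorem PT_dec {A : Set Word} {α : Type*} [Enc α] (q : ℕ) {z j : α → ℕ} {T : α → List ℕ}
    (hz : PT A z) (hj : PT A j) (hT : PT A T) : PT A (fun x => dec q (z x) (j x) (T x)) := by
  refine PT.flatMap (l := T) (f := fun p x => if x < z p ∧ x % q = j p then [x / q] else []) hT ?_
  refine PT.ite (p := fun p : α × ℕ => p.2 < z p.1 ∧ p.2 % q = j p.1) ?_ ?_ (PT.const _)
  · exact PT.decide_and (PT.lt PT.snd' (hz.comp PT.fst'))
      (PT.eqNat (PT.mod PT.snd' (PT.const q)) (hj.comp PT.fst'))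
  · exact PT.cons (PT.div PT.snd' (PT.const q)) (PT.const [])

theorem PT_algR {alg : List (List ℕ) → List ℕ} (hc : PT ∅ cover) (ha : PT ∅ alg) :
    PT ∅ (algR cover a b q alg) := by
  have hfn : PT ∅ (fun S : List (List ℕ) => alg (fn cover a b q S (wt cover S))) :=
    ha.comp (PT_fn a b q hc PT.id (PT_wt hc PT.id))
  refine H802.PT_aminY (f := fun (_ : List (List ℕ)) (u : List ℕ) => u.length)
    (d := ([] : List ℕ)) (l := fun S => (List.range q).map
    (fun j => dec q (letter q S) j (alg (fn cover a b q S (wt cover S))))) ?_ ?_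
  · refine PT.map (l := fun _ : List (List ℕ) => List.range q)
      (f := fun S j => dec q (letter q S) j (alg (fn cover a b q S (wt cover S)))) (PT.const _) ?_
    exact PT_dec q ((PT_letter q PT.id).comp PT.fst') PT.snd' (hfn.comp PT.fst')
  · exact PT.snd'.length

theorem fn_wt (F : List (List ℕ)) : fn cover a b q F (wt cover F) =
    pad q (letter q F) (padLen cover a b q F) F := by
  unfold fn
  rw [if_pos le_rfl]

theorem algR_spec {alg : List (List ℕ) → List ℕ} (hq : 0 < q) {S : List (List ℕ)}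
    (h : IsSuperstring (fn cover a b q S (wt cover S)) (alg (fn cover a b q S (wt cover S)))) :
    IsSuperstring S (algR cover a b q alg S) ∧
      q * (algR cover a b q alg S).length + padLen cover a b q S ≤
        (alg (fn cover a b q S (wt cover S))).length := by
  set T := alg (fn cover a b q S (wt cover S)) with hT
  rw [fn_wt] at h
  have hne : ((List.range q).map (fun j => dec q (letter q S) j T)) ≠ [] := by
    intro h0
    have := congrArg List.length h0
    simp at this
    omega
  have hmem : algR cover a b q alg S ∈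
      ((List.range q).map (fun j => dec q (letter q S) j T)) := H359.amin_mem _ _ hne
  have hle : ∀ j ∈ Finset.range q, (algR cover a b q alg S).length ≤
      (T.filterMap (rd q (letter q S) j)).length := by
    intro j hj
    have h1 : dec q (letter q S) j T ∈ ((List.range q).map (fun j => dec q (letter q S) j T)) :=
      List.mem_map.2 ⟨j, List.mem_range.2 (Finset.mem_range.1 hj), rfl⟩
    have h2 := H359.amin_le List.length ([] : List ℕ) h1
    rw [← dec_eq]
    exact h2
  constructor
  · obtain ⟨j, hj, hj2⟩ := List.mem_map.1 hmem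
    intro s hs
    rw [← hj2, dec_eq]
    have h3 := h (stretch q s)
      (by simp only [pad, List.mem_cons, List.mem_map]; exact Or.inr ⟨s, hs, rfl⟩)
    have h4 := infix_filterMap (f := rd q (letter q S) j) h3
    rwa [filterMap_stretch (List.mem_range.1 hj) s (letter_ok (q := q) (F := S) s hs)] at h4
  · have h5 := Finset.card_nsmul_le_sum _ _ _ hle
    rw [Finset.card_range, smul_eq_mul] at h5
    have h6 := sum_rd (z := letter q S) hq T
    have h7 : padLen cover a b q S ≤ T.count (letter q S) := by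
      have := h (List.replicate (padLen cover a b q S) (letter q S)) (by simp [pad])
      exact List.replicate_sublist_iff.1 this.sublist
    omega

theorem one_le_of_approxOn {κ ρ : ℝ} (hκ : 0 < κ) (h : HasApproxOn κ ρ) : 1 ≤ ρ := by
  obtain ⟨alg, -, halg⟩ := h
  obtain ⟨m, hm⟩ := exists_nat_ge (1 / κ)
  have hm0 : (0 : ℝ) < m := lt_of_lt_of_le (by positivity) hm
  set S : List (List ℕ) := [List.replicate m 0] with hS
  have h1 : (m : ℝ) ≤ opt S := by exact_mod_cast opt_rep m
  have h2 : (cyc S : ℝ) ≤ 1 := by exact_mod_cast cyc_rep m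
  have h3 : 1 ≤ κ * opt S := by
    rw [div_le_iff₀ hκ] at hm
    have := mul_le_mul_of_nonneg_left h1 hκ.le
    linarith
  obtain ⟨h4, h5⟩ := halg S (by linarith)
  have h6 : (opt S : ℝ) ≤ (alg S).length := by exact_mod_cast opt_le h4
  have h7 : 1 * (opt S : ℝ) ≤ ρ * opt S := by linarith
  exact le_of_mul_le_mul_right h7 (lt_of_lt_of_le hm0 h1)

/-- From the families with `cyc S ≤ κ * opt S` to all families. -/
theorem approx_of_approxOn {κ ρ ρ' : ℝ} (hκ : 0 < κ) (hκ1 : κ ≤ 1) (h : HasApproxOn κ ρ)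
    (hρ' : 1 + (ρ - 1) / κ < ρ') : HasApprox ρ' := by
  have hρ1 := one_le_of_approxOn hκ h
  obtain ⟨alg, ⟨M⟩, halg⟩ := h
  have hρ'1 : 0 < ρ' - 1 := by
    have : 0 ≤ (ρ - 1) / κ := div_nonneg (by linarith) hκ.le
    linarith
  have h4 : (ρ - 1) / (ρ' - 1) < κ := by
    rw [div_lt_iff₀ hρ'1]
    have h5 : (ρ - 1) / κ < ρ' - 1 := by linarith
    rw [div_lt_iff₀ hκ] at h5
    linarith
  obtain ⟨c, hc1, hc2⟩ := exists_rat_btwn h4
  have hc0 : (0 : ℝ) < c := lt_of_le_of_lt (div_nonneg (by linarith) hρ'1.le) hc1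
  have hc0' : 0 < c := by exact_mod_cast hc0
  obtain ⟨a, ha⟩ : ∃ a : ℕ, (a : ℤ) = c.num := ⟨c.num.toNat, Int.toNat_of_nonneg
    (Rat.num_nonneg.2 hc0'.le)⟩
  set b : ℕ := c.den with hb
  have hb0 : (0 : ℝ) < b := by exact_mod_cast c.den_pos
  have hcb : (c : ℝ) * b = a := by
    have h5 : (c : ℚ) * c.den = c.num := Rat.mul_den_eq_num c
    have h6 : ((c : ℝ)) * (c.den : ℝ) = (c.num : ℝ) := by exact_mod_cast h5
    rw [hb, h6, ← ha]
    simp
  have ha0 : (0 : ℝ) < a := by rw [← hcb]; exact mul_pos hc0 hb0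
  have ha0' : 0 < a := by exact_mod_cast ha0
  have hab : (a : ℝ) ≤ b := by
    rw [← hcb]
    have : (c : ℝ) * b ≤ 1 * b := mul_le_mul_of_nonneg_right (by linarith) hb0.le
    linarith
  have hab' : a ≤ b := by exact_mod_cast hab
  -- `e = ρ' - 1 - (ρ - 1) / c`
  set g : ℝ := 1 / c with hg
  have hg1 : 1 ≤ g := by
    rw [hg, le_div_iff₀ hc0]
    linarith
  have hgb : (b : ℝ) = g * a := by
    rw [hg, ← hcb]
    field_simp
  have he : 0 < ρ' - 1 - (ρ - 1) * g := by
    have h5 : (ρ - 1) * g = (ρ - 1) / c := by rw [hg]; ring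
    rw [h5, sub_pos, div_lt_iff₀ hc0]
    rw [div_lt_iff₀ hρ'1] at hc1
    linarith
  set e : ℝ := ρ' - 1 - (ρ - 1) * g with hedef
  set X : ℝ := (ρ - 1) * (g + 1) with hX
  have hX0 : 0 ≤ X := mul_nonneg (by linarith) (by linarith)
  obtain ⟨q0, hq0⟩ := exists_nat_ge (max (X / e) X)
  have hqe : X ≤ e * ((q0 + 1 : ℕ) : ℝ) := by
    have h5 : X / e ≤ q0 := (le_max_left _ _).trans hq0
    rw [div_le_iff₀ he] at h5
    push_cast
    nlinarith
  have hqX : X < ((q0 + 1 : ℕ) : ℝ) := by
    have h5 : X ≤ q0 := (le_max_right _ _).trans hq0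
    push_cast
    linarith
  set q : ℕ := q0 + 1 with hqdef
  have hq : 0 < q := by omega
  have hqr : (0 : ℝ) < q := by exact_mod_cast hq
  obtain ⟨cover, hv1, hv2⟩ := coverAlg assignAlg
  obtain ⟨W, hW, hW'⟩ := exists_FP_of_tm2 (A := ∅) M
  have hA : PT ∅ alg := ⟨W, hW, fun S => by
    have := hW' S
    rwa [U.familyW_eq, U.stringW_eq] at this⟩
  refine ⟨algR cover a b q alg, U.polyTime_of_PT (PT_algR a b q hv1 hA), fun S => ?_⟩
  have hcl : (cyc (fn cover a b q S (wt cover S)) : ℝ) ≤ κ * opt (fn cover a b q S (wt cover S)) := by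
    have h7 := fn_class a b q hv2 ha0' hab' hq S (wt cover S)
    have h8 : (b : ℝ) * cyc (fn cover a b q S (wt cover S)) ≤
        a * opt (fn cover a b q S (wt cover S)) := by exact_mod_cast h7
    rw [← hcb] at h8
    have h9 : (b : ℝ) * cyc (fn cover a b q S (wt cover S)) ≤
        b * (c * opt (fn cover a b q S (wt cover S))) := by linarith
    refine (le_of_mul_le_mul_left h9 hb0).trans ?_
    exact mul_le_mul_of_nonneg_right hc2.le (Nat.cast_nonneg _)
  obtain ⟨h1, h2⟩ := halg _ hcl
  obtain ⟨h3, h5⟩ := algR_spec a b q hq h1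
  refine ⟨h3, ?_⟩
  have h6 : opt (fn cover a b q S (wt cover S)) ≤ padLen cover a b q S + q * opt S := by
    rw [fn_wt]; exact pad_upper
  have h6' : (opt (fn cover a b q S (wt cover S)) : ℝ) ≤
      (padLen cover a b q S : ℕ) + (q : ℝ) * opt S := by exact_mod_cast h6
  have h5' : (q : ℝ) * (algR cover a b q alg S).length + (padLen cover a b q S : ℕ) ≤
      (alg (fn cover a b q S (wt cover S))).length := by exact_mod_cast h5
  -- the length of the added string
  have h7 : a * (padLen cover a b q S + q * wt cover S) ≤ b * (q * wt cover S + 1) + a := by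
    rw [padLen_add a b q ha0' hab' S, Nat.mul_add, Nat.mul_one]
    exact Nat.add_le_add_right (Nat.mul_div_le _ _) _
  have h7' : (a : ℝ) * ((padLen cover a b q S : ℕ) + (q : ℝ) * wt cover S) ≤
      b * (q * wt cover S + 1) + a := by exact_mod_cast h7
  rw [hgb] at h7'
  have h8 : ((padLen cover a b q S : ℕ) : ℝ) + (q : ℝ) * wt cover S ≤
      g * (q * wt cover S + 1) + 1 := by
    have h9 : (a : ℝ) * (((padLen cover a b q S : ℕ) : ℝ) + (q : ℝ) * wt cover S) ≤
        a * (g * (q * wt cover S + 1) + 1) := by linarith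
    exact le_of_mul_le_mul_left h9 ha0
  have h9 : (wt cover S : ℝ) ≤ opt S := by
    rw [wt_eq hv2 S]; exact_mod_cast cyc_le_opt S
  have h10 : (g - 1) * (q * (wt cover S : ℝ)) ≤ (g - 1) * (q * opt S) :=
    mul_le_mul_of_nonneg_left (mul_le_mul_of_nonneg_left h9 hqr.le) (by linarith)
  have h11 : ((padLen cover a b q S : ℕ) : ℝ) ≤ (g - 1) * (q * opt S) + (g + 1) := by linarith
  have h12 : (ρ - 1) * ((padLen cover a b q S : ℕ) : ℝ) ≤
      (ρ - 1) * ((g - 1) * (q * opt S) + (g + 1)) :=
    mul_le_mul_of_nonneg_left h11 (by linarith)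
  have h13 : ρ * (opt (fn cover a b q S (wt cover S)) : ℝ) ≤
      ρ * ((padLen cover a b q S : ℕ) + (q : ℝ) * opt S) :=
    mul_le_mul_of_nonneg_left h6' (by linarith)
  have h14 : (q : ℝ) * (algR cover a b q alg S).length ≤
      q * opt S * (1 + (ρ - 1) * g) + X := by
    rw [hX]
    nlinarith
  rcases Nat.eq_zero_or_pos (opt S) with h0 | h0
  · rw [h0] at h14 ⊢
    simp only [Nat.cast_zero, mul_zero, zero_mul, zero_add] at h14 ⊢
    have h15 : (q : ℝ) * (algR cover a b q alg S).length < q * 1 := by linarith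
    have h16 : ((algR cover a b q alg S).length : ℝ) < 1 := lt_of_mul_lt_mul_left h15 hqr.le
    have h17 : (algR cover a b q alg S).length < 1 := by exact_mod_cast h16
    have h18 : (algR cover a b q alg S).length = 0 := by omega
    rw [h18]
    simp
  · have h0' : (1 : ℝ) ≤ opt S := by exact_mod_cast h0
    have h15 : X ≤ e * q * opt S := by
      have h16 : e * q * 1 ≤ e * q * opt S :=
        mul_le_mul_of_nonneg_left h0' (mul_nonneg he.le hqr.le)
      linarith
    have h16 : (q : ℝ) * (algR cover a b q alg S).length ≤ q * (ρ' * opt S) := by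
      have h17 : (q : ℝ) * opt S * (1 + (ρ - 1) * g) + e * q * opt S = q * (ρ' * opt S) := by
        rw [hedef]; ring
      linarith
    exact le_of_mul_le_mul_left h16 hqr

end Vale.Agent.P333.R3.H619
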