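import Mathlib
import Vale.Agent.P333.R3.H619.Red

set_option linter.all false

/-!
P333: an approximation on the families with `cyc S ≤ κ * opt S` gives an approximation on the
families with `cyc S ≤ κ' * opt S`, `κ ≤ κ'`.
-/

namespace Vale.Agent.P333.R3.H619

open Vale.Agent.P333 Vale.Agent.P333.U Vale.Agent.P333.Y Vale.Agent.Lib.PolyTime

variable (cover : List (List ℕ) → List (List (List ℕ))) (p s b q : ℕ)

/-- The length of the added string. -/
def padM (F : List (List ℕ)) : ℕ := (p * (q * wt cover F)) / s + b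

/-- The new family. -/
def famM (F : List (List ℕ)) : List (List ℕ) := pad q (letter q F) (padM cover p s b q F) F

/-- The shortest of the decoded words. -/
def algM (alg : List (List ℕ) → List ℕ) (S : List (List ℕ)) : List ℕ :=
  amin List.length [] ((List.range q).map
    (fun j => dec q (letter q S) j (alg (famM cover p s b q S))))

variable {cover}

theorem PT_famM (hc : PT ∅ cover) : PT ∅ (famM cover p s b q) := by
  have h := PT_wt hc (PT.id (α := List (List ℕ)))
  have hp : PBd (fun F : List (List ℕ) => padM cover p s b q F) := by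
    have h1 : PBd (fun F : List (List ℕ) => wt cover F) := PBd_wt (A := ∅) PT.id
    have h2 : PBd (fun F : List (List ℕ) => p * (q * wt cover F) + b) := by fun_prop
    exact h2.mono fun x => Nat.add_le_add_right (Nat.div_le_self _ _) _
  exact PT.cons (PT.replicate (PT.add (PT.div (PT.mul (PT.const p) (PT.mul (PT.const q) h))
    (PT.const s)) (PT.const b)) hp (PT_letter q PT.id))
    (PT.map (f := fun _ s => stretch q s) PT.id ((PT_stretch q).comp PT.snd'))

theorem PT_algM {alg : List (List ℕ) → List ℕ} (hc : PT ∅ cover) (ha : PT ∅ alg) :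
    PT ∅ (algM cover p s b q alg) := by
  have hfn : PT ∅ (fun S : List (List ℕ) => alg (famM cover p s b q S)) :=
    ha.comp (PT_famM p s b q hc)
  refine H802.PT_aminY (f := fun (_ : List (List ℕ)) (u : List ℕ) => u.length)
    (d := ([] : List ℕ)) (l := fun S => (List.range q).map
    (fun j => dec q (letter q S) j (alg (famM cover p s b q S)))) ?_ ?_
  · refine PT.map (l := fun _ : List (List ℕ) => List.range q)
      (f := fun S j => dec q (letter q S) j (alg (famM cover p s b q S))) (PT.const _) ?_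
    exact PT_dec q ((PT_letter q PT.id).comp PT.fst') PT.snd' (hfn.comp PT.fst')
  · exact PT.snd'.length

theorem algM_spec {alg : List (List ℕ) → List ℕ} (hq : 0 < q) {S : List (List ℕ)}
    (h : IsSuperstring (famM cover p s b q S) (alg (famM cover p s b q S))) :
    IsSuperstring S (algM cover p s b q alg S) ∧
      q * (algM cover p s b q alg S).length + padM cover p s b q S ≤
        (alg (famM cover p s b q S)).length := by
  set T := alg (famM cover p s b q S) with hT
  have hne : ((List.range q).map (fun j => dec q (letter q S) j T)) ≠ [] := by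
    intro h0
    have := congrArg List.length h0
    simp at this
    omega
  have hmem : algM cover p s b q alg S ∈
      ((List.range q).map (fun j => dec q (letter q S) j T)) := H359.amin_mem _ _ hne
  have hle : ∀ j ∈ Finset.range q, (algM cover p s b q alg S).length ≤
      (T.filterMap (rd q (letter q S) j)).length := by
    intro j hj
    have h1 : dec q (letter q S) j T ∈ ((List.range q).map (fun j => dec q (letter q S) j T)) :=
      List.mem_map.2 ⟨j, List.mem_range.2 (Finset.mem_range.1 hj), rfl⟩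
    have h2 := H359.amin_le List.length ([] : List ℕ) h1
    rw [← dec_eq]
    exact h2
  constructor
  · obtain ⟨j, hj, hj2⟩ := List.mem_map.1 hmem
    intro u hu
    rw [← hj2, dec_eq]
    have h3 := h (stretch q u)
      (by simp only [famM, pad, List.mem_cons, List.mem_map]; exact Or.inr ⟨u, hu, rfl⟩)
    have h4 := infix_filterMap (f := rd q (letter q S) j) h3
    rwa [filterMap_stretch (List.mem_range.1 hj) u (letter_ok (q := q) (F := S) u hu)] at h4
  · have h5 := Finset.card_nsmul_le_sum _ _ _ hle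
    rw [Finset.card_range, smul_eq_mul] at h5
    have h6 := sum_rd (z := letter q S) hq T
    have h7 : padM cover p s b q S ≤ T.count (letter q S) := by
      have := h (List.replicate (padM cover p s b q S) (letter q S)) (by simp [famM, pad])
      exact List.replicate_sublist_iff.1 this.sublist
    omega

theorem famM_class (hcov : ∀ S, Sfree S → MinCover S (cover S)) {κ κ' : ℝ} (hκ : 0 < κ)
    (hκ' : 0 < κ') (hq : 0 < q) (hs : 0 < s) (hb : 1 / κ + 1 ≤ b)
    (ht : 1 / κ - 1 / κ' ≤ (p : ℝ) / s) {F : List (List ℕ)} (hF : (cyc F : ℝ) ≤ κ' * opt F) :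
    (cyc (famM cover p s b q F) : ℝ) ≤ κ * opt (famM cover p s b q F) := by
  have h1 := pad_cyc (q := q) (z := letter q F) (M := padM cover p s b q F)
      (cyclic_of_cover (hcov _ (sfree_clean F)))
  rw [sum_cw, ← cyc_eq (hcov _ (sfree_clean F)), ← wt_eq hcov F] at h1
  have h2 := pad_lower (M := padM cover p s b q F) hq (letter_ok (q := q) (F := F))
  have h1' : (cyc (famM cover p s b q F) : ℝ) ≤ q * wt cover F + 1 := by
    unfold famM
    exact_mod_cast h1
  have h2' : ((padM cover p s b q F : ℕ) : ℝ) + q * opt F ≤ opt (famM cover p s b q F) := by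
    unfold famM
    exact_mod_cast h2
  have hs' : (0 : ℝ) < s := by exact_mod_cast hs
  have hw : (wt cover F : ℝ) ≤ κ' * opt F := by rw [wt_eq hcov F]; exact hF
  have h3 : p * (q * wt cover F) < s * ((p * (q * wt cover F)) / s + 1) :=
    Nat.lt_mul_div_succ _ hs
  have h3' : (p : ℝ) * (q * wt cover F) ≤ s * (((p * (q * wt cover F)) / s : ℕ) + 1) := by
    exact_mod_cast h3.le
  have h4 : (p : ℝ) / s * (q * wt cover F) ≤ ((p * (q * wt cover F)) / s : ℕ) + 1 := by
    rw [div_mul_eq_mul_div, div_le_iff₀ hs']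
    linarith
  have h5 : (1 / κ - 1 / κ') * (q * wt cover F) ≤ (p : ℝ) / s * (q * wt cover F) :=
    mul_le_mul_of_nonneg_right ht (by positivity)
  have h6 : (padM cover p s b q F : ℝ) = ((p * (q * wt cover F)) / s : ℕ) + b := by
    unfold padM; push_cast; ring
  have h7 : (1 / κ - 1 / κ') * (q * wt cover F) + 1 / κ ≤ padM cover p s b q F := by
    rw [h6]; linarith
  have h8 : κ * ((1 / κ - 1 / κ') * (q * wt cover F) + 1 / κ) ≤ κ * padM cover p s b q F :=
    mul_le_mul_of_nonneg_left h7 hκ.le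
  have h9 : κ * ((1 / κ - 1 / κ') * (q * wt cover F) + 1 / κ) =
      q * wt cover F + 1 - κ / κ' * (q * wt cover F) := by
    field_simp
    ring
  have h10 : κ / κ' * (q * (wt cover F : ℝ)) ≤ κ / κ' * (q * (κ' * opt F)) :=
    mul_le_mul_of_nonneg_left (mul_le_mul_of_nonneg_left hw (Nat.cast_nonneg _))
      (div_nonneg hκ.le hκ'.le)
  have h11 : κ / κ' * (q * (κ' * (opt F : ℝ))) = κ * (q * opt F) := by
    field_simp
  have h12 := mul_le_mul_of_nonneg_left h2' hκ.le
  linarith

/-- From the class of `κ` to the class of `κ'`. -/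
theorem approxOn_mono {κ κ' ρ ρ' : ℝ} (hκ : 0 < κ) (hle : κ ≤ κ') (h : HasApproxOn κ ρ)
    (hρ' : 1 + (ρ - 1) * κ' / κ < ρ') : HasApproxOn κ' ρ' := by
  have hρ1 := one_le_of_approxOn hκ h
  have hκ' : 0 < κ' := lt_of_lt_of_le hκ hle
  obtain ⟨alg, ⟨M⟩, halg⟩ := h
  set e : ℝ := ρ' - 1 - (ρ - 1) * κ' / κ with he
  have he0 : 0 < e := by rw [he]; linarith
  set T0 : ℝ := 1 / κ - 1 / κ' with hT0
  have hT00 : 0 ≤ T0 := by
    rw [hT0, sub_nonneg]
    exact one_div_le_one_div_of_le hκ hle
  have hY0 : 0 ≤ (ρ - 1) * κ' := mul_nonneg (by linarith) hκ'.le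
  have hY1 : 0 < (ρ - 1) * κ' + 1 := by linarith
  have hδ : 0 < e / (2 * ((ρ - 1) * κ' + 1)) := by positivity
  obtain ⟨t, ht1, ht2⟩ := exists_rat_btwn (lt_add_of_pos_right T0 hδ)
  have ht0 : (0 : ℝ) < t := lt_of_le_of_lt hT00 ht1
  have ht0' : 0 < t := by exact_mod_cast ht0
  obtain ⟨p, hp⟩ : ∃ p : ℕ, (p : ℤ) = t.num := ⟨t.num.toNat, Int.toNat_of_nonneg
    (Rat.num_nonneg.2 ht0'.le)⟩
  set s : ℕ := t.den with hs
  have hs0' : 0 < s := t.den_pos
  have hs0 : (0 : ℝ) < s := by exact_mod_cast hs0'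
  have htp : (p : ℝ) / s = t := by
    have h5 : (t : ℚ) * t.den = t.num := Rat.mul_den_eq_num t
    have h6 : ((t : ℝ)) * (t.den : ℝ) = (t.num : ℝ) := by exact_mod_cast h5
    rw [div_eq_iff hs0.ne', hs, h6, ← hp]
    simp
  obtain ⟨b, hb⟩ := exists_nat_ge (1 / κ + 1)
  set X : ℝ := (ρ - 1) * b with hX
  have hX0 : 0 ≤ X := mul_nonneg (by linarith) (Nat.cast_nonneg _)
  obtain ⟨q0, hq0⟩ := exists_nat_ge (max (2 * X / e) X)
  have hqe : X ≤ e / 2 * ((q0 + 1 : ℕ) : ℝ) := by
    have h5 : 2 * X / e ≤ q0 := (le_max_left _ _).trans hq0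
    rw [div_le_iff₀ he0] at h5
    push_cast
    nlinarith
  have hqX : X < ((q0 + 1 : ℕ) : ℝ) := by
    have h5 : X ≤ q0 := (le_max_right _ _).trans hq0
    push_cast
    linarith
  set q : ℕ := q0 + 1 with hqdef
  have hq : 0 < q := by omega
  have hqr : (0 : ℝ) < q := by exact_mod_cast hq
  obtain ⟨cover, hv1, hv2⟩ := coverAlg assignAlg
  obtain ⟨W, hW, hW'⟩ := exists_FP_of_tm2 (A := ∅) M
  have hA : PT ∅ alg := ⟨W, hW, fun S => by
    have := hW' S
    rwa [U.familyW_eq, U.stringW_eq] at this⟩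
  refine ⟨algM cover p s b q alg, U.polyTime_of_PT (PT_algM p s b q hv1 hA), fun S hS => ?_⟩
  have hcl := famM_class p s b q hv2 hκ hκ' hq hs0' hb (by rw [htp]; exact ht1.le) hS
  obtain ⟨h1, h2⟩ := halg _ hcl
  obtain ⟨h3, h5⟩ := algM_spec p s b q hq h1
  refine ⟨h3, ?_⟩
  have h6 : opt (famM cover p s b q S) ≤ padM cover p s b q S + q * opt S := by
    unfold famM; exact pad_upper
  have h6' : (opt (famM cover p s b q S) : ℝ) ≤
      (padM cover p s b q S : ℕ) + (q : ℝ) * opt S := by exact_mod_cast h6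
  have h5' : (q : ℝ) * (algM cover p s b q alg S).length + (padM cover p s b q S : ℕ) ≤
      (alg (famM cover p s b q S)).length := by exact_mod_cast h5
  have hw : (wt cover S : ℝ) ≤ κ' * opt S := by rw [wt_eq hv2 S]; exact hS
  have h7 : ((padM cover p s b q S : ℕ) : ℝ) ≤ t * (q * wt cover S) + b := by
    unfold padM
    push_cast
    have h8 : (((p * (q * wt cover S)) / s : ℕ) : ℝ) ≤ ((p * (q * wt cover S) : ℕ) : ℝ) / s :=
      Nat.cast_div_le
    have h9 : ((p * (q * wt cover S) : ℕ) : ℝ) / s = t * (q * wt cover S) := by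
      rw [← htp]; push_cast; ring
    linarith
  have h8 : (t : ℝ) * (q * wt cover S) ≤ t * (q * (κ' * opt S)) :=
    mul_le_mul_of_nonneg_left (mul_le_mul_of_nonneg_left hw hqr.le) ht0.le
  have h9 : (ρ - 1) * ((padM cover p s b q S : ℕ) : ℝ) ≤
      (ρ - 1) * (t * (q * (κ' * opt S)) + b) :=
    mul_le_mul_of_nonneg_left (by linarith) (by linarith)
  have h10 : ρ * (opt (famM cover p s b q S) : ℝ) ≤
      ρ * ((padM cover p s b q S : ℕ) + (q : ℝ) * opt S) :=
    mul_le_mul_of_nonneg_left h6' (by linarith)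
  have h11 : (ρ - 1) * κ' * t ≤ (ρ - 1) * κ' * T0 + e / 2 := by
    have h12 : (ρ - 1) * κ' * t ≤ (ρ - 1) * κ' * (T0 + e / (2 * ((ρ - 1) * κ' + 1))) :=
      mul_le_mul_of_nonneg_left ht2.le hY0
    have h13 : (ρ - 1) * κ' * (e / (2 * ((ρ - 1) * κ' + 1))) ≤ e / 2 := by
      have h14 : (ρ - 1) * κ' * (e / (2 * ((ρ - 1) * κ' + 1))) ≤
          ((ρ - 1) * κ' + 1) * (e / (2 * ((ρ - 1) * κ' + 1))) :=
        mul_le_mul_of_nonneg_right (by linarith) hδ.le
      have h15 : ((ρ - 1) * κ' + 1) * (e / (2 * ((ρ - 1) * κ' + 1))) = e / 2 := by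
        field_simp
      linarith
    linarith
  have h12 : (ρ - 1) * κ' * T0 = (ρ - 1) * κ' / κ - (ρ - 1) := by
    rw [hT0]
    field_simp
  have h13 : ρ + (ρ - 1) * κ' * t ≤ ρ' - e / 2 := by
    rw [h12] at h11
    linarith
  have h14 : (q : ℝ) * opt S * (ρ + (ρ - 1) * κ' * t) ≤ q * opt S * (ρ' - e / 2) :=
    mul_le_mul_of_nonneg_left h13 (by positivity)
  have h15 : (q : ℝ) * (algM cover p s b q alg S).length ≤ q * opt S * (ρ' - e / 2) + X := by
    have h16 : (q : ℝ) * (algM cover p s b q alg S).length ≤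
        q * opt S * (ρ + (ρ - 1) * κ' * t) + X := by
      rw [hX]
      have h17 : (ρ - 1) * ((t : ℝ) * (q * (κ' * opt S)) + b) =
          q * opt S * ((ρ - 1) * κ' * t) + (ρ - 1) * b := by ring
      rw [h17] at h9
      linarith
    linarith
  rcases Nat.eq_zero_or_pos (opt S) with h0 | h0
  · rw [h0] at h15 ⊢
    simp only [Nat.cast_zero, mul_zero, zero_mul, zero_add] at h15 ⊢
    have h16 : (q : ℝ) * (algM cover p s b q alg S).length < q * 1 := by linarith
    have h17 : ((algM cover p s b q alg S).length : ℝ) < 1 := lt_of_mul_lt_mul_left h16 hqr.le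
    have h18 : (algM cover p s b q alg S).length < 1 := by exact_mod_cast h17
    have h19 : (algM cover p s b q alg S).length = 0 := by omega
    rw [h19]
    simp
  · have h0' : (1 : ℝ) ≤ opt S := by exact_mod_cast h0
    have h16 : X ≤ e / 2 * q * opt S := by
      have h17 : e / 2 * q * 1 ≤ e / 2 * q * opt S :=
        mul_le_mul_of_nonneg_left h0' (by positivity)
      linarith
    have h17 : (q : ℝ) * (algM cover p s b q alg S).length ≤ q * (ρ' * opt S) := by
      have h18 : (q : ℝ) * opt S * (ρ' - e / 2) + e / 2 * q * opt S = q * (ρ' * opt S) := by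
        ring
      linarith
    exact le_of_mul_le_mul_left h17 hqr

end Vale.Agent.P333.R3.H619
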