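import Mathlib
import Vale.Agent.P333.R3.H619.Alg
import Vale.Agent.P333.R3.H619.Hard
import Vale.Agent.P333.R3.H619.Red
import Vale.Agent.P333.R3.H619.Mono
import Vale.Agent.P333.NP.Main
import Vale.Agent.P333.R2.H141.Result108
import Vale.Agent.P333.R2.H99.Amp3
import Vale.Agent.P333.R2.H417.Bulk

set_option linter.all false

/-!
P333: the approximation guarantee `opt S + cyc S`, and the hardness on the classes
`cyc S ≤ κ * opt S`.
-/

namespace Vale.Agent.P333.R3.H619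

open Vale.Agent.P333 Vale.Agent.P333.U Vale.Agent.Lib.PolyTime

theorem hard108 : Hard (108 / 107) :=
  (R2.H141.result108 (R2.H99.ampsExistK_of (by norm_num) (by norm_num)
    (by norm_num : (1 / 512 : ℝ) ≤ 1 / 500) R2.H417.bulkBound)).2.2.2.2.2

/-- The hardness on the classes, with the constant `107`. -/
theorem hard_class108 (κ : ℝ) (hκ : 0 < κ) (hκ1 : κ ≤ 1) (ρ : ℝ) (hρ : ρ < 1 + κ / 107)
    (L : Set (List Bool)) (hL : L ∈ classNP) :
    ∃ (f : List Bool → List (List ℕ)) (k : List Bool → ℕ),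
      PolyTime (fun w : List Bool => w) familyW f ∧
      PolyTime (fun w : List Bool => w) Nat.bits k ∧
      ∀ x, (cyc (f x) : ℝ) ≤ κ * opt (f x) ∧ (x ∈ L → opt (f x) ≤ k x) ∧
        (x ∉ L → ρ * k x < opt (f x)) := by
  refine hard_class (by norm_num) (by norm_num) hard108 κ hκ hκ1 ρ ?_ L hL
  have : (108 / 107 - 1 : ℝ) * κ = κ / 107 := by ring
  rwa [this]

/-- The least length of a cyclic cover is computed in polynomial time. -/
theorem polyTime_cyc : PolyTime familyW Nat.bits cyc := by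
  obtain ⟨cover, hv1, hv2⟩ := coverAlg assignAlg
  have h : PT ∅ cyc := (PT_wt hv1 PT.id).congr fun S => wt_eq hv2 S
  obtain ⟨g, hg, hgf⟩ := h
  exact tm2_of_polyTimeFun _ _ _ g (polyTimeFun_iff.2 hg) fun S => by
    rw [U.familyW_eq]; exact hgf S

theorem approxOn (κ : ℝ) : HasApproxOn κ (1 + κ) := by
  obtain ⟨alg, h1, h2⟩ := plusCyclic_ratio
  exact ⟨alg, h1, fun S hS => ⟨(h2 S).1, (h2 S).2.2 κ hS⟩⟩

theorem approxOn_one (ρ : ℝ) : HasApproxOn 1 ρ ↔ HasApprox ρ := by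
  constructor
  · rintro ⟨alg, h1, h2⟩
    refine ⟨alg, h1, fun S => h2 S ?_⟩
    rw [one_mul]
    exact_mod_cast cyc_le_opt S
  · rintro ⟨alg, h1, h2⟩
    exact ⟨alg, h1, fun S _ => h2 S⟩

theorem np_eq_p_on {κ : ℝ} (hκ : 0 < κ) (hκ1 : κ ≤ 1) {ρ : ℝ} (hρ : ρ < 1 + κ / 107)
    (h : HasApproxOn κ ρ) : classNP = classP := by
  refine Set.Subset.antisymm ?_ NP.classP_subset
  intro L hL
  obtain ⟨c, hc1, hc2⟩ := exists_rat_btwn (max_lt hρ (by positivity : (0 : ℝ) < 1 + κ / 107))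
  obtain ⟨f, k, hf, hk, hfk⟩ := hard_class108 κ hκ hκ1 c hc2 L hL
  obtain ⟨alg, ⟨M⟩, halg⟩ := h
  have hc0 : (0 : ℝ) < c := lt_of_le_of_lt (le_max_right _ _) hc1
  have hc0' : 0 < c := by exact_mod_cast hc0
  obtain ⟨n, hn⟩ : ∃ n : ℕ, (n : ℤ) = c.num := ⟨c.num.toNat, Int.toNat_of_nonneg
    (Rat.num_nonneg.2 hc0'.le)⟩
  set b : ℕ := c.den with hb
  have hb0 : (0 : ℝ) < b := by exact_mod_cast c.den_pos
  have hcb : (c : ℝ) * b = n := by
    have h5 : (c : ℚ) * c.den = c.num := Rat.mul_den_eq_num c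
    have h6 : ((c : ℝ)) * (c.den : ℝ) = (c.num : ℝ) := by exact_mod_cast h5
    rw [hb, h6, ← hn]
    simp
  obtain ⟨W, hW, hW'⟩ := exists_FP_of_tm2 (A := ∅) M
  have hA : PT ∅ alg := ⟨W, hW, fun S => by
    have := hW' S
    rwa [U.familyW_eq, U.stringW_eq] at this⟩
  have hF : PT ∅ (fun r : Raw => f r.w) := PT_of_word U.familyW_eq hf
  have hK : PT ∅ (fun r : Raw => k r.w) := PT_of_word rfl hk
  refine ⟨fun x => decide (b * (alg (f x)).length ≤ n * k x), word_of_PT rfl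
    (PT.le (PT.mul (PT.const b) (hA.comp hF).length) (PT.mul (PT.const n) hK)), fun x => ?_⟩
  obtain ⟨h1, h2, h3⟩ := hfk x
  obtain ⟨h4, h5⟩ := halg (f x) h1
  have h6 : (opt (f x) : ℝ) ≤ (alg (f x)).length := by exact_mod_cast opt_le h4
  rw [decide_eq_true_eq]
  constructor
  · intro hx
    have h7 : (opt (f x) : ℝ) ≤ k x := by exact_mod_cast h2 hx
    have h8 : ((alg (f x)).length : ℝ) ≤ c * k x := by
      refine h5.trans ?_
      have h9 : ρ ≤ c := (le_max_left _ _).trans hc1.le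
      calc ρ * (opt (f x) : ℝ) ≤ c * opt (f x) := mul_le_mul_of_nonneg_right h9 (Nat.cast_nonneg _)
        _ ≤ c * k x := mul_le_mul_of_nonneg_left h7 hc0.le
    have h10 : (b : ℝ) * (alg (f x)).length ≤ n * k x := by
      rw [← hcb]
      have := mul_le_mul_of_nonneg_left h8 hb0.le
      linarith
    exact_mod_cast h10
  · intro hle
    by_contra hx
    have h7 := h3 hx
    have h8 : (b : ℝ) * (alg (f x)).length ≤ n * k x := by exact_mod_cast hle
    rw [← hcb] at h8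
    have h9 : (b : ℝ) * (alg (f x)).length ≤ b * (c * k x) := by linarith
    have h10 := le_of_mul_le_mul_left h9 hb0
    linarith

theorem ratioOn_le {κ : ℝ} (hκ : 0 < κ) : ratioOn κ ≤ 1 + κ :=
  csInf_le ⟨1, fun ρ hρ => one_le_of_approxOn hκ hρ⟩ (approxOn κ)

theorem le_ratioOn {κ : ℝ} (hκ : 0 < κ) (hκ1 : κ ≤ 1) (hne : classNP ≠ classP) :
    1 + κ / 107 ≤ ratioOn κ := by
  refine le_csInf ⟨_, approxOn κ⟩ fun ρ hρ => ?_
  by_contra hcon
  exact hne (np_eq_p_on hκ hκ1 (not_le.1 hcon) hρ)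

theorem plusOn_one (κ : ℝ) : HasPlusOn κ 1 := by
  obtain ⟨alg, h1, h2⟩ := plusCyclic
  refine ⟨alg, h1, fun S _ => ⟨(h2 S).1, ?_⟩⟩
  rw [one_mul]
  exact_mod_cast (h2 S).2

theorem np_eq_p_plus {κ : ℝ} (hκ : 0 < κ) (hκ1 : κ ≤ 1) {c : ℝ} (hc : c < 1 / 107)
    (h : HasPlusOn κ c) : classNP = classP := by
  obtain ⟨alg, h1, h2⟩ := h
  have h0 : max c 0 < 1 / 107 := max_lt hc (by norm_num)
  refine np_eq_p_on hκ hκ1 (ρ := 1 + max c 0 * κ) ?_ ⟨alg, h1, fun S hS => ⟨(h2 S hS).1, ?_⟩⟩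
  · have := mul_lt_mul_of_pos_right h0 hκ
    linarith
  · have h3 := (h2 S hS).2
    have h4 : c * (cyc S : ℝ) ≤ max c 0 * cyc S :=
      mul_le_mul_of_nonneg_right (le_max_left _ _) (Nat.cast_nonneg _)
    have h5 : max c 0 * (cyc S : ℝ) ≤ max c 0 * (κ * opt S) :=
      mul_le_mul_of_nonneg_left hS (le_max_right _ _)
    have h6 : max c 0 * (κ * (opt S : ℝ)) = max c 0 * κ * opt S := by ring
    linarith

/-- The best ratio on all families, from a ratio on one class. -/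
theorem bestRatio_le_of {κ ρ : ℝ} (hκ : 0 < κ) (hκ1 : κ ≤ 1) (h : HasApproxOn κ ρ) :
    κ * (bestRatio - 1) ≤ ρ - 1 := by
  have h1 : bestRatio ≤ 1 + (ρ - 1) / κ := by
    refine le_of_forall_pos_le_add fun ε hε => ?_
    exact NP.bestRatio_le (approx_of_approxOn hκ hκ1 h (by linarith))
  have h2 : bestRatio - 1 ≤ (ρ - 1) / κ := by linarith
  rw [le_div_iff₀ hκ] at h2
  linarith

theorem ratio_rel {κ : ℝ} (hκ : 0 < κ) (hκ1 : κ ≤ 1) : 1 + κ * (bestRatio - 1) ≤ ratioOn κ := by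
  refine le_csInf ⟨_, approxOn κ⟩ fun ρ hρ => ?_
  have := bestRatio_le_of hκ hκ1 hρ
  linarith

theorem ratioOn_one : ratioOn 1 = bestRatio := by
  unfold ratioOn bestRatio
  congr 1
  ext ρ
  exact approxOn_one ρ

/-- `2` is beaten on all families once `1 + κ` is beaten on one class. -/
theorem beat_iff : bestRatio < 2 ↔ ∃ κ : ℝ, 0 < κ ∧ κ ≤ 1 ∧ ratioOn κ < 1 + κ := by
  constructor
  · intro h
    refine ⟨1, one_pos, le_rfl, ?_⟩
    rw [ratioOn_one]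
    linarith
  · rintro ⟨κ, h0, h1, h2⟩
    have h3 := ratio_rel h0 h1
    have h4 : κ * (bestRatio - 1) < κ * 1 := by linarith
    have h5 := lt_of_mul_lt_mul_left h4 h0.le
    linarith

theorem bestRatio_le_of_plus {κ : ℝ} (hκ : 0 < κ) (hκ1 : κ ≤ 1) {c : ℝ} (hc : 0 ≤ c)
    (h : HasPlusOn κ c) : bestRatio ≤ 1 + c := by
  obtain ⟨alg, h1, h2⟩ := h
  have h3 : HasApproxOn κ (1 + c * κ) := by
    refine ⟨alg, h1, fun S hS => ⟨(h2 S hS).1, ?_⟩⟩
    have h4 := (h2 S hS).2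
    have h5 : c * (cyc S : ℝ) ≤ c * (κ * opt S) := mul_le_mul_of_nonneg_left hS hc
    have h6 : c * (κ * (opt S : ℝ)) = c * κ * opt S := by ring
    linarith
  have h4 := bestRatio_le_of hκ hκ1 h3
  have h5 : κ * (bestRatio - 1) ≤ κ * c := by linarith
  have h6 := le_of_mul_le_mul_left h5 hκ
  linarith

/-- The ratios on two classes. -/
theorem slope_anti {κ κ' : ℝ} (hκ : 0 < κ) (hle : κ ≤ κ') :
    (ratioOn κ' - 1) / κ' ≤ (ratioOn κ - 1) / κ := by
  have hκ' : 0 < κ' := lt_of_lt_of_le hκ hle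
  have h1 : ∀ ρ, HasApproxOn κ ρ → ratioOn κ' ≤ 1 + (ρ - 1) * κ' / κ := by
    intro ρ hρ
    refine le_of_forall_pos_le_add fun ε hε => ?_
    exact csInf_le ⟨1, fun r hr => one_le_of_approxOn hκ' hr⟩
      (approxOn_mono hκ hle hρ (by linarith))
  have h2 : 1 + (ratioOn κ' - 1) / κ' * κ ≤ ratioOn κ := by
    refine le_csInf ⟨_, approxOn κ⟩ fun ρ hρ => ?_
    have h3 : ratioOn κ' - 1 ≤ (ρ - 1) / κ * κ' := by
      have := h1 ρ hρ
      have h4 : (ρ - 1) / κ * κ' = (ρ - 1) * κ' / κ := by ring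
      linarith
    have h5 : (ratioOn κ' - 1) / κ' ≤ (ρ - 1) / κ := by
      rw [div_le_iff₀ hκ']
      exact h3
    have h6 := mul_le_mul_of_nonneg_right h5 hκ.le
    rw [div_mul_cancel₀ _ hκ.ne'] at h6
    linarith
  rw [le_div_iff₀ hκ]
  linarith

theorem slope_le {κ : ℝ} (hκ : 0 < κ) : (ratioOn κ - 1) / κ ≤ 1 := by
  rw [div_le_one hκ]
  have := ratioOn_le hκ
  linarith

open Filter Topology in
/-- The slope at `0`. -/
theorem slope_lim : ∃ γ : ℝ, Tendsto (fun κ : ℝ => (ratioOn κ - 1) / κ) (𝓝[>] 0) (𝓝 γ) ∧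
    bestRatio - 1 ≤ γ ∧ γ ≤ 1 ∧ (classNP ≠ classP → 1 / 107 ≤ γ) ∧
    (∀ κ : ℝ, 0 < κ → (ratioOn κ - 1) / κ ≤ γ) ∧
    (∀ κ c : ℝ, 0 < κ → 0 ≤ c → HasPlusOn κ c → γ ≤ c) := by
  have hm : MonotoneOn (fun κ : ℝ => -((ratioOn κ - 1) / κ)) (Set.Ioo 0 2) := by
    intro x hx y hy hxy
    exact neg_le_neg (slope_anti hx.1 hxy)
  have hb : BddBelow ((fun κ : ℝ => -((ratioOn κ - 1) / κ)) '' Set.Ioo 0 2) := by
    refine ⟨-1, ?_⟩
    rintro _ ⟨x, hx, rfl⟩
    exact neg_le_neg (slope_le hx.1)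
  have h1 := hm.tendsto_nhdsWithin_Ioo_right ⟨1, by norm_num⟩ hb
  have h2 := h1.neg
  simp only [neg_neg] at h2
  refine ⟨_, h2, ?_⟩
  set γ : ℝ := -sInf ((fun κ : ℝ => -((ratioOn κ - 1) / κ)) '' Set.Ioo 0 2) with hγ
  have h3 : ∀ κ : ℝ, 0 < κ → (ratioOn κ - 1) / κ ≤ γ := by
    intro κ hκ
    refine ge_of_tendsto h2 ?_
    filter_upwards [Ioo_mem_nhdsGT hκ] with x hx
    exact slope_anti hx.1 hx.2.le
  have h4 : γ ≤ 1 := by
    refine le_of_tendsto h2 ?_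
    filter_upwards [self_mem_nhdsWithin] with x hx
    exact slope_le hx
  refine ⟨?_, h4, fun hne => ?_, h3, fun κ c hκ hc h => ?_⟩
  · have := h3 1 one_pos
    rw [ratioOn_one] at this
    linarith
  · have h5 := h3 1 one_pos
    have h6 := le_ratioOn one_pos le_rfl hne
    linarith
  · refine le_of_tendsto h2 ?_
    filter_upwards [Ioo_mem_nhdsGT hκ] with x hx
    rw [div_le_iff₀ hx.1]
    have h7 : HasApproxOn x (1 + c * x) := by
      obtain ⟨alg, h8, h9⟩ := h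
      refine ⟨alg, h8, fun S hS => ?_⟩
      have h10 : (cyc S : ℝ) ≤ κ * opt S :=
        hS.trans (mul_le_mul_of_nonneg_right hx.2.le (Nat.cast_nonneg _))
      refine ⟨(h9 S h10).1, ?_⟩
      have h11 := (h9 S h10).2
      have h12 : c * (cyc S : ℝ) ≤ c * (x * opt S) := mul_le_mul_of_nonneg_left hS hc
      have h13 : c * (x * (opt S : ℝ)) = c * x * opt S := by ring
      linarith
    have h8 : ratioOn x ≤ 1 + c * x :=
      csInf_le ⟨1, fun r hr => one_le_of_approxOn hx.1 hr⟩ h7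
    linarith

end Vale.Agent.P333.R3.H619
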