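import Mathlib
import Vale.Agent.P333.R3.H619.Main
import Vale.Agent.P333.R3.H619.DefsMix

set_option linter.all false

/-!
P333: the slope of `ratioOn` at `0` is the least `c` such that length `(1 + ε) * opt + (c + ε) * cyc`
is achieved for every `ε`.
-/

namespace Vale.Agent.P333.R3.H619

open Vale.Agent.P333 Vale.Agent.P333.U Vale.Agent.P333.Y Vale.Agent.Lib.PolyTime

theorem contB_iff (S : List (List ℕ)) (T : List ℕ) : E.contB S T = true ↔ IsSuperstring S T := by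
  unfold E.contB IsSuperstring
  rw [List.all_eq_true]
  exact forall₂_congr fun s _ => infB_iff _ _

/-- One algorithm for finitely many classes. -/
theorem exists_all (κ ρ : ℕ → ℝ) (N : ℕ) (h : ∀ i < N, HasApproxOn (κ i) (ρ i)) :
    ∃ alg : List (List ℕ) → List ℕ, PT ∅ alg ∧ (∀ S, IsSuperstring S (alg S)) ∧
      ∀ i < N, ∀ S, (cyc S : ℝ) ≤ κ i * opt S → ((alg S).length : ℝ) ≤ ρ i * opt S := by
  induction N with
  | zero =>
    refine ⟨fun S => S.flatten, PT.id.flatten, fun S s hs => List.infix_of_mem_flatten hs, ?_⟩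
    intro i hi
    omega
  | succ N ih =>
    obtain ⟨B, hB1, hB2, hB3⟩ := ih fun i hi => h i (by omega)
    obtain ⟨alg, ⟨M⟩, halg⟩ := h N (by omega)
    obtain ⟨W, hW, hW'⟩ := exists_FP_of_tm2 (A := ∅) M
    have hA : PT ∅ alg := ⟨W, hW, fun S => by
      have := hW' S
      rwa [U.familyW_eq, U.stringW_eq] at this⟩
    have hc : PT ∅ (fun S : List (List ℕ) => E.contB S (alg S)) := E.PT_contB PT.id hA
    set A' : List (List ℕ) → List ℕ := fun S => if E.contB S (alg S) = true then alg S else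
      S.flatten with hA'
    have hA'1 : PT ∅ A' := PT.ite (p := fun S : List (List ℕ) => E.contB S (alg S) = true)
      (hc.congr fun S => by simp) hA PT.id.flatten
    have hA'2 : ∀ S, IsSuperstring S (A' S) := by
      intro S
      rw [hA']
      dsimp only
      split_ifs with h1
      · exact (contB_iff _ _).1 h1
      · exact fun s hs => List.infix_of_mem_flatten hs
    refine ⟨fun S => if (A' S).length ≤ (B S).length then A' S else B S,
      PT.ite (p := fun S => (A' S).length ≤ (B S).length) (PT.le hA'1.length hB1.length) hA'1 hB1,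
      fun S => ?_, fun i hi S hS => ?_⟩
    · dsimp only
      split_ifs
      · exact hA'2 S
      · exact hB2 S
    · have hmin : (((if (A' S).length ≤ (B S).length then A' S else B S).length : ℕ) : ℝ) ≤
          (A' S).length ∧ (((if (A' S).length ≤ (B S).length then A' S else B S).length : ℕ) : ℝ) ≤
          (B S).length := by
        split_ifs with h1
        · exact ⟨le_rfl, by exact_mod_cast h1⟩
        · exact ⟨by exact_mod_cast (not_le.1 h1).le, le_rfl⟩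
      rcases Nat.lt_succ_iff_lt_or_eq.1 hi with h1 | h1
      · exact hmin.2.trans (hB3 i h1 S hS)
      · subst h1
        refine hmin.1.trans ?_
        obtain ⟨h2, h3⟩ := halg S hS
        have h4 : A' S = alg S := by
          rw [hA']
          dsimp only
          rw [if_pos ((contB_iff _ _).2 h2)]
        rw [h4]
        exact h3

theorem mix_of {c : ℝ} (hc : 0 ≤ c) (h : ∀ κ : ℝ, 0 < κ → κ ≤ 1 → ratioOn κ ≤ 1 + c * κ)
    {ε : ℝ} (hε : 0 < ε) : HasMix (1 + ε) (c + ε) := by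
  have h1 : ∀ κ : ℝ, 0 < κ → κ ≤ 1 → HasApproxOn κ (1 + (c + ε / 2) * κ) := by
    intro κ h0 h1
    have h2 : ratioOn κ < 1 + (c + ε / 2) * κ := by
      have := h κ h0 h1
      nlinarith
    obtain ⟨ρ, ⟨alg, h3, h4⟩, h5⟩ := exists_lt_of_csInf_lt (s := {ρ : ℝ | HasApproxOn κ ρ}) ⟨_, approxOn κ⟩ h2
    refine ⟨alg, h3, fun S hS => ⟨(h4 S hS).1, (h4 S hS).2.trans ?_⟩⟩
    exact mul_le_mul_of_nonneg_right h5.le (Nat.cast_nonneg _)
  set δ : ℝ := ε / (2 * c + ε) with hδ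
  have hcε : 0 < 2 * c + ε := by linarith
  have hδ0 : 0 < δ := div_pos hε hcε
  have hδ1 : (c + ε / 2) * (1 + δ) = c + ε := by
    rw [hδ]
    field_simp
    ring
  set θ : ℝ := 1 / (1 + δ) with hθ
  have hθ0 : 0 < θ := by positivity
  have hθ1 : θ < 1 := by
    rw [hθ, div_lt_one (by linarith)]
    linarith
  have hθδ : (1 + δ) * θ = 1 := by
    rw [hθ]
    field_simp
  obtain ⟨N, hN⟩ := exists_pow_lt_of_lt_one (by positivity : 0 < ε / (c + ε / 2)) hθ1
  have hN' : (c + ε / 2) * θ ^ N ≤ ε := by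
    rw [lt_div_iff₀ (by linarith)] at hN
    linarith
  obtain ⟨alg, ha1, ha2, ha3⟩ := exists_all (fun i => θ ^ i) (fun i => 1 + (c + ε / 2) * θ ^ i)
    (N + 1) fun i _ => h1 _ (by positivity) (pow_le_one₀ hθ0.le hθ1.le)
  refine ⟨alg, U.polyTime_of_PT ha1, fun S => ⟨ha2 S, ?_⟩⟩
  have ho : (0 : ℝ) ≤ opt S := Nat.cast_nonneg _
  have hw : (0 : ℝ) ≤ cyc S := Nat.cast_nonneg _
  by_cases hS : (cyc S : ℝ) ≤ θ ^ N * opt S
  · have h2 := ha3 N (by omega) S hS
    have h3 : (c + ε / 2) * θ ^ N * opt S ≤ ε * opt S := mul_le_mul_of_nonneg_right hN' ho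
    have h4 : 0 ≤ (c + ε) * cyc S := mul_nonneg (by linarith) hw
    linarith
  · have hex : ∃ j : ℕ, θ ^ j * (opt S : ℝ) < cyc S := ⟨N, not_le.1 hS⟩
    classical
    set j := Nat.find hex with hj
    have hj1 : θ ^ j * (opt S : ℝ) < cyc S := Nat.find_spec hex
    have hjN : j ≤ N := Nat.find_min' hex (not_le.1 hS)
    have hj0 : j ≠ 0 := by
      intro h0
      rw [h0, pow_zero, one_mul] at hj1
      have : (cyc S : ℝ) ≤ opt S := by exact_mod_cast cyc_le_opt S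
      linarith
    obtain ⟨i, hi⟩ := Nat.exists_eq_succ_of_ne_zero hj0
    have h2 : ¬ θ ^ i * (opt S : ℝ) < cyc S := Nat.find_min hex (by omega)
    have h3 := ha3 i (by omega) S (not_lt.1 h2)
    have h4 : θ ^ i = (1 + δ) * θ ^ j := by
      rw [hi, pow_succ]
      have : (1 + δ) * (θ ^ i * θ) = (1 + δ) * θ * θ ^ i := by ring
      rw [this, hθδ, one_mul]
    have h5 : (1 + (c + ε / 2) * θ ^ i) * (opt S : ℝ) =
        opt S + (c + ε) * (θ ^ j * opt S) := by
      rw [h4, ← hδ1]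
      ring
    have h6 : (c + ε) * (θ ^ j * (opt S : ℝ)) ≤ (c + ε) * cyc S :=
      mul_le_mul_of_nonneg_left hj1.le (by linarith)
    have h7 : 0 ≤ ε * (opt S : ℝ) := mul_nonneg hε.le ho
    rw [h5] at h3
    linarith

theorem ratio_of_mix {c : ℝ} (h : ∀ ε : ℝ, 0 < ε → HasMix (1 + ε) (c + ε)) {κ : ℝ} (hκ : 0 < κ)
    (hκ1 : κ ≤ 1) (hc : 0 ≤ c) : ratioOn κ ≤ 1 + c * κ := by
  refine le_of_forall_pos_le_add fun ε hε => ?_
  obtain ⟨alg, h1, h2⟩ := h (ε / 2) (by linarith)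
  refine csInf_le ⟨1, fun r hr => one_le_of_approxOn hκ hr⟩ ⟨alg, h1, fun S hS =>
    ⟨(h2 S).1, (h2 S).2.trans ?_⟩⟩
  have ho : (0 : ℝ) ≤ opt S := Nat.cast_nonneg _
  have h3 : (c + ε / 2) * (cyc S : ℝ) ≤ (c + ε / 2) * (κ * opt S) :=
    mul_le_mul_of_nonneg_left hS (by linarith)
  have h4 : ε / 2 * κ * (opt S : ℝ) ≤ ε / 2 * 1 * opt S :=
    mul_le_mul_of_nonneg_right (mul_le_mul_of_nonneg_left hκ1 (by linarith)) ho
  nlinarith

open Filter Topology in
/-- The slope at `0` and its meaning. -/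
theorem slope_mix : ∃ γ : ℝ, Tendsto (fun κ : ℝ => (ratioOn κ - 1) / κ) (𝓝[>] 0) (𝓝 γ) ∧
    0 ≤ γ ∧ bestRatio - 1 ≤ γ ∧ γ ≤ 1 ∧ (classNP ≠ classP → 1 / 107 ≤ γ) ∧
    (∀ κ : ℝ, 0 < κ → (ratioOn κ - 1) / κ ≤ γ) ∧
    (∀ κ c : ℝ, 0 < κ → 0 ≤ c → HasPlusOn κ c → γ ≤ c) ∧
    (∀ c : ℝ, 0 ≤ c → (γ ≤ c ↔ ∀ ε : ℝ, 0 < ε → HasMix (1 + ε) (c + ε))) := by
  obtain ⟨γ, h1, h2, h3, h4, h5, h6⟩ := slope_lim
  have h0 : 0 ≤ γ := by
    have h7 := h5 1 one_pos
    have h8 : 1 ≤ ratioOn 1 := le_csInf ⟨_, approxOn 1⟩ fun r hr => one_le_of_approxOn one_pos hr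
    rw [div_one] at h7
    linarith
  refine ⟨γ, h1, h0, h2, h3, h4, h5, h6, fun c hc => ⟨fun h ε hε => ?_, fun h => ?_⟩⟩
  · refine mix_of hc (fun κ h0 _ => ?_) hε
    have h7 := (h5 κ h0).trans h
    rw [div_le_iff₀ h0] at h7
    linarith
  · refine le_of_tendsto h1 ?_
    filter_upwards [Ioo_mem_nhdsGT one_pos] with x hx
    rw [div_le_iff₀ hx.1]
    have h7 := ratio_of_mix h hx.1 hx.2.le hc
    linarith

end Vale.Agent.P333.R3.H619
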